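import Vale.Agent.P163.Defs

/-! Resampling kernels and rotations. -/

namespace Vale.Agent.P163

open MeasureTheory Filter Topology Set Function
open scoped Matrix Pointwise

/-- lattice sites. -/
abbrev Site : Type := ℤ × ℤ

variable {n : ℕ}

instance [NeZero n] : IsProbabilityMeasure (unif n) :=
  ⟨by
    rw [unif, Measure.smul_apply, smul_eq_mul, ENNReal.inv_mul_cancel _ (measure_ne_top _ _)]
    exact Measure.measure_univ_ne_zero.mpr (Measure.toSphere_ne_zero _)⟩

/-- the a priori measure. -/
noncomputable def PP (n : ℕ) : Measure (Config n) := Measure.infinitePi fun _ : Site => unif n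

instance [NeZero n] : IsProbabilityMeasure (PP n) := by unfold PP; infer_instance

open Classical in
/-- `s` inside `D`, `ζ` outside. -/
noncomputable def mix (D : Set Site) (s ζ : Config n) : Config n :=
  fun x => if x ∈ D then s x else ζ x

theorem mix_of_mem {D : Set Site} {x : Site} (h : x ∈ D) (s ζ : Config n) : mix D s ζ x = s x :=
  if_pos h

theorem mix_of_notMem {D : Set Site} {x : Site} (h : x ∉ D) (s ζ : Config n) :
    mix D s ζ x = ζ x := if_neg h

theorem continuous_mix (D : Set Site) : Continuous fun p : Config n × Config n => mix D p.1 p.2 := by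
  refine continuous_pi fun x => ?_
  by_cases h : x ∈ D
  · simp only [mix_of_mem h]; fun_prop
  · simp only [mix_of_notMem h]; fun_prop

theorem integrable_cm {Y : Type*} [TopologicalSpace Y] [CompactSpace Y] [MeasurableSpace Y]
    [OpensMeasurableSpace Y] {μ : Measure Y} [IsFiniteMeasure μ] {f : Y → ℝ} (hf : Continuous f) :
    Integrable f μ :=
  (BoundedContinuousFunction.mkOfCompact ⟨f, hf⟩).integrable μ

/-- the exponential of an observable. -/
noncomputable def ex (H : C(Config n, ℝ)) : C(Config n, ℝ) := ⟨fun s => Real.exp (H s), by fun_prop⟩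

theorem ex_add (H H' : C(Config n, ℝ)) : ex (H + H') = ex H * ex H' :=
  ContinuousMap.ext fun _ => Real.exp_add _ _

/-- independence of the spins in `D`. -/
def Ind (D : Set Site) (G : C(Config n, ℝ)) : Prop := ∀ s ζ, G (mix D s ζ) = G ζ

theorem Ind.mul {D : Set Site} {F G : C(Config n, ℝ)} (hF : Ind D F) (hG : Ind D G) :
    Ind D (F * G) := fun s ζ => by simp [hF s ζ, hG s ζ]

theorem Ind.ex {D : Set Site} {F : C(Config n, ℝ)} (hF : Ind D F) : Ind D (ex F) :=
  fun s ζ => congrArg Real.exp (hF s ζ)

variable [NeZero n]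

theorem measurePreserving_mix (D : Set Site) :
    MeasurePreserving (fun p : Config n × Config n => mix D p.1 p.2) ((PP n).prod (PP n))
      (PP n) := by
  classical
  refine ⟨(continuous_mix D).measurable, Measure.eq_infinitePi _ fun s t ht => ?_⟩
  rw [Measure.map_apply (continuous_mix D).measurable (.pi s.countable_toSet fun i _ => ht i)]
  have : (fun p : Config n × Config n => mix D p.1 p.2) ⁻¹' (s : Set Site).pi t =
      ((s.filter (· ∈ D) : Finset Site) : Set Site).pi t ×ˢ
        ((s.filter (· ∉ D) : Finset Site) : Set Site).pi t := by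
    ext p
    simp only [mem_preimage, Set.mem_pi, Finset.mem_coe, mem_prod, Finset.mem_filter]
    refine ⟨fun h => ⟨fun i hi => mix_of_mem hi.2 p.1 p.2 ▸ h i hi.1,
      fun i hi => mix_of_notMem hi.2 p.1 p.2 ▸ h i hi.1⟩, fun h i hi => ?_⟩
    by_cases hD : i ∈ D
    · rw [mix_of_mem hD]; exact h.1 i ⟨hi, hD⟩
    · rw [mix_of_notMem hD]; exact h.2 i ⟨hi, hD⟩
  rw [this, Measure.prod_prod, PP, Measure.infinitePi_pi _ fun i _ => ht i,
    Measure.infinitePi_pi _ fun i _ => ht i, Finset.prod_filter_mul_prod_filter_not]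

omit [NeZero n] in
theorem continuous_mix_left (D : Set Site) (F : C(Config n, ℝ)) (ζ : Config n) :
    Continuous fun s => F (mix D s ζ) :=
  F.continuous.comp ((continuous_mix D).comp (Continuous.prodMk_left ζ))

/-- integration over the spins in `D`. -/
noncomputable def II (D : Set Site) : C(Config n, ℝ) →ₗ[ℝ] C(Config n, ℝ) where
  toFun F := ⟨fun ζ => ∫ s, F (mix D s ζ) ∂PP n, by
    have := continuous_parametric_integral_of_continuous (μ := PP n)
      (f := fun ζ s => F (mix D s ζ))
      (F.continuous.comp ((continuous_mix D).comp continuous_swap)) isCompact_univ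
    simpa using this⟩
  map_add' F G := ContinuousMap.ext fun ζ => integral_add
    (integrable_cm (continuous_mix_left D F ζ)) (integrable_cm (continuous_mix_left D G ζ))
  map_smul' c F := ContinuousMap.ext fun ζ => integral_const_mul c _

theorem II_apply (D : Set Site) (F : C(Config n, ℝ)) (ζ : Config n) :
    II D F ζ = ∫ s, F (mix D s ζ) ∂PP n := rfl

theorem II_mono (D : Set Site) {F G : C(Config n, ℝ)} (h : ∀ s, F s ≤ G s) (ζ : Config n) :
    II D F ζ ≤ II D G ζ :=
  integral_mono (integrable_cm (continuous_mix_left D F ζ))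
    (integrable_cm (continuous_mix_left D G ζ)) fun _ => h _

theorem II_ex_pos (D : Set Site) (H : C(Config n, ℝ)) (ζ : Config n) : 0 < II D (ex H) ζ :=
  integral_exp_pos (integrable_cm (continuous_mix_left D (ex H) ζ))

theorem II_II {D D' : Set Site} (h : D' ⊆ D) (F : C(Config n, ℝ)) : II D (II D' F) = II D F := by
  ext ζ
  have e : ∀ s s' : Config n, mix D' s' (mix D s ζ) = mix D (mix D' s' s) ζ := fun s s' => by
    funext x
    by_cases h1 : x ∈ D'
    · simp [mix_of_mem h1, mix_of_mem (h h1)]
    · by_cases h2 : x ∈ D <;> simp [mix, h1, h2]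
  simp only [II_apply, e]
  have hc := continuous_mix_left D F ζ
  rw [← integral_prod_symm (fun p : Config n × Config n => F (mix D (mix D' p.1 p.2) ζ))
    (integrable_cm (hc.comp (continuous_mix D'))), ← integral_map
    (f := fun s => F (mix D s ζ)) (continuous_mix D').measurable.aemeasurable
    hc.aestronglyMeasurable, (measurePreserving_mix D').map_eq]

theorem II_mul {D : Set Site} {G : C(Config n, ℝ)} (hG : Ind D G) (F : C(Config n, ℝ)) :
    II D (G * F) = G * II D F := by
  ext ζ
  simp only [II_apply, ContinuousMap.mul_apply, hG _ ζ, integral_const_mul]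

theorem ind_II (D : Set Site) (F : C(Config n, ℝ)) : Ind D (II D F) := fun s ζ => by
  simp only [II_apply]
  congr! 3 with s'
  funext x
  by_cases h : x ∈ D <;> simp [mix, h]

theorem Ind.II {D D' : Set Site} {F : C(Config n, ℝ)} (hF : Ind D F) (h : Disjoint D D') :
    Ind D (II D' F) := fun s ζ => by
  simp only [II_apply]
  congr! 2 with s'
  rw [← hF s (mix D' s' ζ)]
  congr 1
  funext x
  by_cases h1 : x ∈ D
  · simp [mix, h1, disjoint_left.mp h h1]
  · simp [mix, h1]

/-- the Gibbs kernel. -/
noncomputable def gam (H : C(Config n, ℝ)) (D : Set Site) (F : C(Config n, ℝ)) :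
    C(Config n, ℝ) :=
  ⟨fun ζ => II D (F * ex H) ζ / II D (ex H) ζ,
    (map_continuous _).div (map_continuous _) fun ζ => (II_ex_pos D H ζ).ne'⟩

theorem gam_apply (H : C(Config n, ℝ)) (D : Set Site) (F : C(Config n, ℝ)) (ζ : Config n) :
    gam H D F ζ = II D (F * ex H) ζ / II D (ex H) ζ := rfl

theorem tower {D D' : Set Site} (h : D' ⊆ D) {G : C(Config n, ℝ)} (hG : Ind D' G)
    (F H : C(Config n, ℝ)) : II D (G * F * ex H) = II D (G * gam H D' F * ex H) := by
  have h1 : Ind D' (gam H D' F) := fun s ζ => by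
    rw [gam_apply, gam_apply, ind_II, ind_II]
  rw [← II_II h, ← II_II h (G * gam H D' F * ex H), mul_assoc, II_mul hG, II_mul (hG.mul h1)]
  congr 1
  ext ζ
  simp only [ContinuousMap.mul_apply, gam_apply, mul_assoc,
    div_mul_cancel₀ _ (II_ex_pos D' H ζ).ne']

theorem Ind.gam {D D' : Set Site} {F H : C(Config n, ℝ)} (hF : Ind D F) (hH : Ind D H)
    (h : Disjoint D D') : Ind D (gam H D' F) := fun s ζ => by
  rw [gam_apply, gam_apply, (hF.mul hH.ex).II h, hH.ex.II h]

omit [NeZero n] in
theorem inner_mulVec {O : Matrix (Fin n) (Fin n) ℝ} (h : Oᵀ * O = 1)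
    (v w : EuclideanSpace ℝ (Fin n)) :
    inner ℝ (Matrix.toEuclideanLin O v) (Matrix.toEuclideanLin O w) = inner ℝ v w := by
  simp only [EuclideanSpace.inner_eq_star_dotProduct, Matrix.toLpLin_apply, star_trivial]
  rw [Matrix.dotProduct_mulVec, Matrix.vecMul_mulVec, h, Matrix.vecMul_one]

/-- the isometry given by an orthogonal matrix. -/
noncomputable def iso (O : Matrix (Fin n) (Fin n) ℝ) (h : Oᵀ * O = 1) :
    EuclideanSpace ℝ (Fin n) ≃ₗᵢ[ℝ] EuclideanSpace ℝ (Fin n) :=
  ((Matrix.toEuclideanLin O).isometryOfInner (inner_mulVec h)).toLinearIsometryEquiv rfl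

/-- the action of orthogonal matrices on configurations. -/
noncomputable def act (O : Site → Matrix (Fin n) (Fin n) ℝ) (h : ∀ x, (O x)ᵀ * O x = 1)
    (s : Config n) : Config n :=
  fun x => ⟨iso (O x) (h x) (s x), by simp⟩

omit [NeZero n] in
theorem act_apply (O : Site → Matrix (Fin n) (Fin n) ℝ) (h : ∀ x, (O x)ᵀ * O x = 1)
    (s : Config n) (x : Site) (i : Fin n) : (act O h s x).1 i = (O x *ᵥ (s x).1.ofLp) i := rfl

omit [NeZero n] in
theorem continuous_act (O : Site → Matrix (Fin n) (Fin n) ℝ) (h : ∀ x, (O x)ᵀ * O x = 1) :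
    Continuous (act O h) :=
  continuous_pi fun x => Continuous.subtype_mk (by fun_prop) _

theorem measurePreserving_act (O : Site → Matrix (Fin n) (Fin n) ℝ) (h : ∀ x, (O x)ᵀ * O x = 1) :
    MeasurePreserving (act O h) (PP n) (PP n) := by
  let f : Site → Spin n → Spin n := fun x v => ⟨iso (O x) (h x) v, by simp⟩
  have hf : ∀ x, Measurable (f x) := fun x =>
    (Continuous.subtype_mk (by fun_prop) _).measurable
  refine ⟨(continuous_act O h).measurable, (Measure.infinitePi_map_pi _ hf).trans ?_⟩
  refine congrArg Measure.infinitePi (funext fun x => ?_)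
  rw [unif, Measure.map_smul]
  congr 1
  ext t ht
  rw [Measure.map_apply (hf x) ht, Measure.toSphere_apply' _ ht,
    Measure.toSphere_apply' _ (hf x ht), ← (iso (O x) (h x)).measurePreserving.measure_preimage_emb
    (iso (O x) (h x)).toHomeomorph.measurableEmbedding (Ioo (0 : ℝ) 1 • Subtype.val '' t)]
  congr 2
  ext v
  constructor
  · rintro ⟨r, hr, _, ⟨w, hw, rfl⟩, rfl⟩
    exact ⟨r, hr, _, ⟨_, hw, rfl⟩, (map_smul (iso (O x) (h x)) _ _).symm⟩
  · rintro ⟨r, hr, _, ⟨w, hw, rfl⟩, e⟩
    refine ⟨r, hr, _, ⟨⟨(iso (O x) (h x)).symm w, by simp⟩, by simpa [f] using hw, rfl⟩, ?_⟩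
    apply (iso (O x) (h x)).injective
    simpa using e

theorem II_act (O : Site → Matrix (Fin n) (Fin n) ℝ) (h : ∀ x, (O x)ᵀ * O x = 1) (D : Set Site)
    (F : C(Config n, ℝ)) (ζ : Config n) :
    II D F (act O h ζ) = ∫ s, F (act O h (mix D s ζ)) ∂PP n := by
  rw [II_apply, ← (measurePreserving_act O h).map_eq, integral_map
    (continuous_act O h).measurable.aemeasurable
    (continuous_mix_left D F _).aestronglyMeasurable, (measurePreserving_act O h).map_eq]
  congr! 3 with s
  funext x
  by_cases hx : x ∈ D <;> simp [mix, act, hx]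

end Vale.Agent.P163
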