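import Vale.Agent.P163.Basic

/-! Polynomial observables, infinitesimal rotations and the Ward identity. -/

namespace Vale.Agent.P163

open MeasureTheory Filter Topology Set Function
open scoped Matrix

variable {n : ℕ}

/-- polynomial observables. -/
abbrev Pol (n : ℕ) : Type := MvPolynomial (Site × Fin n) ℝ

/-- square matrices. -/
abbrev Mat (n : ℕ) : Type := Matrix (Fin n) (Fin n) ℝ

/-- a spin component. -/
noncomputable def xv (x : Site) (i : Fin n) : Pol n := MvPolynomial.X (x, i)

/-- evaluation of polynomial observables. -/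
noncomputable def ev : Pol n →ₐ[ℝ] C(Config n, ℝ) :=
  MvPolynomial.aeval fun v => ⟨fun s => (s v.1).1 v.2, by fun_prop⟩

@[simp] theorem ev_xv (x : Site) (i : Fin n) (s : Config n) : ev (xv x i) s = (s x).1 i := by
  simp [ev, xv]

/-- the infinitesimal rotation with generator `A` and profile `a`. -/
noncomputable def DD (A : Mat n) : (Site → ℝ) →ₗ[ℝ] Derivation ℝ (Pol n) (Pol n) :=
  (MvPolynomial.mkDerivationEquiv ℝ).toLinearMap ∘ₗ
    { toFun := fun a v => a v.1 • ∑ k, A v.2 k • xv v.1 k
      map_add' := fun _ _ => funext fun _ => add_smul _ _ _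
      map_smul' := fun _ _ => funext fun _ => mul_smul _ _ _ }

theorem DD_xv (A : Mat n) (a : Site → ℝ) (x : Site) (i : Fin n) :
    DD A a (xv x i) = a x • ∑ k, A i k • xv x k := MvPolynomial.mkDerivation_X _ _ _

theorem DD_comm (A B : Mat n) (a b : Site → ℝ) (p : Pol n) :
    DD B b (DD A a p) = DD A a (DD B b p) + DD (A * B - B * A) (a * b) p := by
  have : ⁅DD B b, DD A a⁆ = DD (A * B - B * A) (a * b) := by
    refine MvPolynomial.derivation_ext fun v => ?_
    change DD B b (DD A a (xv v.1 v.2)) - DD A a (DD B b (xv v.1 v.2)) = DD _ _ (xv v.1 v.2)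
    simp only [DD_xv, Derivation.map_smul, map_sum, Finset.smul_sum, smul_smul, Matrix.sub_apply,
      Matrix.mul_apply, Pi.mul_apply, sub_smul, Finset.sum_smul, smul_sub, Finset.sum_sub_distrib]
    congr 1 <;> rw [Finset.sum_comm] <;> refine Finset.sum_congr rfl fun k _ =>
      Finset.sum_congr rfl fun l _ => ?_ <;> congr 1 <;> ring
  rw [← this, Derivation.commutator_apply]
  abel

/-- dependence only on the spins in `T`. -/
def Dep (T : Set Site) (p : Pol n) : Prop := p ∈ MvPolynomial.supported ℝ {v | v.1 ∈ T}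

theorem dep_xv {T : Set Site} {x : Site} (hx : x ∈ T) (i : Fin n) : Dep T (xv x i) :=
  MvPolynomial.X_mem_supported.mpr hx

theorem Dep.mono {T T' : Set Site} {p : Pol n} (h : Dep T p) (hT : T ⊆ T') : Dep T' p := by
  unfold Dep at *
  exact MvPolynomial.supported_mono (s := {v : Site × Fin n | v.1 ∈ T}) (fun _ hv => hT hv) h

theorem Dep.DD {T : Set Site} {p : Pol n} (h : Dep T p) (A : Mat n) (a : Site → ℝ) :
    Dep T (DD A a p) := by
  refine Algebra.adjoin_induction (p := fun p _ => Dep T (P163.DD A a p)) ?_ (fun r => ?_)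
    (fun p q _ _ hp hq => ?_) (fun p q hp hq hp' hq' => ?_) h
  · rintro _ ⟨v, hv, rfl⟩
    exact (DD_xv A a v.1 v.2).symm ▸ Subalgebra.smul_mem _ (Subalgebra.sum_mem _ fun k _ =>
      Subalgebra.smul_mem _ (dep_xv hv k) _) _
  · rw [Derivation.map_algebraMap]; exact Subalgebra.zero_mem _
  · rw [map_add]; exact Subalgebra.add_mem _ hp hq
  · rw [Derivation.leibniz]
    exact Subalgebra.add_mem _ (Subalgebra.mul_mem _ hp hq') (Subalgebra.mul_mem _ hq hp')

theorem Dep.DD_congr {T : Set Site} {p : Pol n} (h : Dep T p) (A : Mat n) {a b : Site → ℝ}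
    (hab : ∀ x ∈ T, a x = b x) : P163.DD A a p = P163.DD A b p :=
  MvPolynomial.derivation_eqOn_supported (fun v hv => by
    change P163.DD A a (xv v.1 v.2) = P163.DD A b (xv v.1 v.2)
    rw [DD_xv, DD_xv, hab _ hv]) h

theorem Dep.DD_zero {T : Set Site} {p : Pol n} (h : Dep T p) (A : Mat n) {a : Site → ℝ}
    (ha : ∀ x ∈ T, a x = 0) : P163.DD A a p = 0 := by
  rw [h.DD_congr A (b := 0) ha, map_zero, Derivation.zero_apply]

theorem Dep.ind {T D : Set Site} {p : Pol n} (h : Dep T p) (hd : Disjoint D T) :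
    Ind D (ev p) := fun s ζ => by
  refine Algebra.adjoin_induction (p := fun p _ => ev p (mix D s ζ) = ev p ζ) ?_ (fun r => ?_)
    (fun p q _ _ hp hq => ?_) (fun p q _ _ hp hq => ?_) h
  · rintro _ ⟨v, hv, rfl⟩
    change ev (xv v.1 v.2) _ = ev (xv v.1 v.2) _
    rw [ev_xv, ev_xv, mix_of_notMem (disjoint_right.mp hd hv)]
  · simp
  · simp [hp, hq]
  · simp [hp, hq]

/-- generators of plane rotations. -/
structure Gen (A : Mat n) : Prop where
  skew : Aᵀ = -A
  cube : A * A * A = -A
  bd : ∀ i j, |A i j| ≤ 1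

/-- the rotation by the angle `θ`. -/
noncomputable def Rm (A : Mat n) (θ : ℝ) : Mat n :=
  1 + Real.sin θ • A + (1 - Real.cos θ) • (A * A)

theorem Gen.orth {A : Mat n} (hA : Gen A) (θ : ℝ) : (Rm A θ)ᵀ * Rm A θ = 1 := by
  have h1 : A * (A * A) = -A := by rw [← mul_assoc, hA.cube]
  have h3 := Real.sin_sq_add_cos_sq θ
  simp only [Rm, Matrix.transpose_add, Matrix.transpose_smul, Matrix.transpose_mul, hA.skew,
    Matrix.transpose_one, mul_add, add_mul, one_mul, mul_one, smul_mul_assoc, mul_smul_comm,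
    neg_mul, mul_neg, neg_neg, mul_assoc, h1]
  match_scalars
  · rfl
  · ring
  · linear_combination (-1 : ℝ) * h3

/-- the flow of an infinitesimal rotation. -/
noncomputable def flow {A : Mat n} (hA : Gen A) (a : Site → ℝ) (t : ℝ) : Config n → Config n :=
  act (fun x => Rm A (t * a x)) fun _ => hA.orth _

theorem flow_eq {A : Mat n} (hA : Gen A) {a : Site → ℝ} {t : ℝ} {x : Site} (s : Config n)
    (h1 : Real.sin (t * a x) = 0) (h2 : Real.cos (t * a x) = 1) : flow hA a t s x = s x := by
  ext i
  rw [flow, act_apply]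
  simp [Rm, h1, h2]

theorem hasDerivAt_ev {A : Mat n} (hA : Gen A) (a : Site → ℝ) (p : Pol n) (s : Config n) (t : ℝ) :
    HasDerivAt (fun t => ev p (flow hA a t s)) (ev (DD A a p) (flow hA a t s)) t := by
  induction p using MvPolynomial.induction_on with
  | C r => simpa [ev] using hasDerivAt_const t r
  | add p q hp hq => simp only [map_add]; exact hp.add hq
  | mul_X p v hp =>
    have h1 : HasDerivAt (fun t => ev (xv v.1 v.2) (flow hA a t s))
        (ev (DD A a (xv v.1 v.2)) (flow hA a t s)) t := by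
      have h2 := (hasDerivAt_id t).mul_const (a v.1)
      have h3 := ((h2.sin.mul_const ((A *ᵥ (s v.1).1.ofLp) v.2)).const_add ((s v.1).1 v.2)).add
        ((h2.cos.const_sub 1).mul_const (((A * A) *ᵥ (s v.1).1.ofLp) v.2))
      have h4 : ∑ k, A v.2 k * (Rm A (t * a v.1) *ᵥ (s v.1).1.ofLp) k =
          ((A * Rm A (t * a v.1)) *ᵥ (s v.1).1.ofLp) v.2 := by
        rw [← Matrix.mulVec_mulVec]; rfl
      simp only [ev_xv, DD_xv, map_smul, map_sum, ContinuousMap.smul_apply,
        ContinuousMap.sum_apply, smul_eq_mul, flow, act_apply, h4]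
      refine HasDerivAt.congr_deriv (h3.congr_of_eventuallyEq (Eventually.of_forall fun u => ?_)) ?_
      · simp [Rm, Matrix.add_mulVec, Matrix.smul_mulVec]
      · simp only [Rm, mul_add, mul_one, mul_smul_comm, ← mul_assoc, hA.cube, Matrix.add_mulVec,
          Matrix.smul_mulVec, Matrix.neg_mulVec, Pi.add_apply, Pi.smul_apply, Pi.neg_apply,
          smul_eq_mul, id]
        ring
    change HasDerivAt (fun t => ev (p * xv v.1 v.2) _) (ev (DD A a (p * xv v.1 v.2)) _) t
    simp only [Derivation.leibniz, smul_eq_mul, map_add, map_mul]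
    refine (hp.mul h1).congr_deriv ?_
    simp only [ContinuousMap.add_apply, ContinuousMap.mul_apply]
    ring

variable [NeZero n]

theorem hasDerivAt_II {A : Mat n} (hA : Gen A) (a : Site → ℝ) (D : Set Site) (p H : Pol n)
    (ζ : Config n) (t : ℝ) :
    HasDerivAt (fun t => II D (ev p * ex (ev H)) (flow hA a t ζ))
      (II D (ev (DD A a p + p * DD A a H) * ex (ev H)) (flow hA a t ζ)) t := by
  have hc : ∀ (F : C(Config n, ℝ)) t, Continuous fun s => F (flow hA a t (mix D s ζ)) :=
    fun F t => continuous_mix_left D (F.comp ⟨_, continuous_act _ _⟩) ζ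
  simp only [flow, II_act]
  refine (hasDerivAt_integral_of_dominated_loc_of_deriv_le (μ := PP n) (s := univ)
    (F := fun t s => (ev p * ex (ev H)) (flow hA a t (mix D s ζ)))
    (F' := fun t s => (ev (DD A a p + p * DD A a H) * ex (ev H)) (flow hA a t (mix D s ζ)))
    (bound := fun _ => ‖ev (DD A a p + p * DD A a H) * ex (ev H)‖) univ_mem
    (Eventually.of_forall fun t => (hc _ t).aestronglyMeasurable) (integrable_cm (hc _ t))
    (hc _ t).aestronglyMeasurable
    (Eventually.of_forall fun s t _ => ContinuousMap.norm_coe_le_norm _ _) (integrable_const _)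
    (Eventually.of_forall fun s t _ => ?_)).2
  refine ((hasDerivAt_ev hA a p _ t).mul (hasDerivAt_ev hA a H _ t).exp).congr_deriv ?_
  simp [ex]
  ring

/-- the expectation of polynomial observables under the Gibbs kernel. -/
noncomputable def EE (H : Pol n) (D : Set Site) (ζ : Config n) : Pol n →ₗ[ℝ] ℝ where
  toFun p := gam (ev H) D (ev p) ζ
  map_add' p q := by simp [gam_apply, add_mul, add_div]
  map_smul' c p := by simp [gam_apply, mul_div_assoc]

omit [NeZero n] in
/-- abstract properties of the expectation. -/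
structure State (H : Pol n) (D : Set Site) (E : Pol n →ₗ[ℝ] ℝ) : Prop where
  mono : ∀ p q, (∀ s, ev p s ≤ ev q s) → E p ≤ E q
  one : E 1 = 1
  ward : ∀ A, Gen A → ∀ a : Site → ℝ, (∀ x ∉ D, a x = 0) → ∀ p, E (DD A a p) = -E (p * DD A a H)

theorem state_EE (H : Pol n) (D : Set Site) (ζ : Config n) : State H D (EE H D ζ) where
  mono p q h := div_le_div_of_nonneg_right (II_mono D (fun s =>
    mul_le_mul_of_nonneg_right (h s) (Real.exp_pos _).le) ζ) (II_ex_pos D _ ζ).le
  one := by
    change gam _ _ _ _ = 1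
    rw [gam_apply, map_one, one_mul, div_self (II_ex_pos D _ ζ).ne']
  ward A hA a ha p := by
    have e : ∀ (F : C(Config n, ℝ)) t, II D F (flow hA a t ζ) = II D F ζ := fun F t => by
      rw [← ind_II D F ζ (flow hA a t ζ)]
      congr 1
      funext x
      by_cases hx : x ∈ D
      · exact mix_of_mem hx _ _
      · rw [mix_of_notMem hx, flow_eq] <;> simp [ha x hx]
    have h := hasDerivAt_II hA a D p H ζ 0
    simp only [e] at h
    rw [eq_neg_iff_add_eq_zero, ← map_add]
    change gam _ _ _ _ = 0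
    rw [gam_apply, h.unique (hasDerivAt_const _ _), zero_div]

end Vale.Agent.P163
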