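import Vale.Agent.P163.Stiff

/-! Decay of the boundary influence on a single spin. -/

namespace Vale.Agent.P163

open Set Function Metric

variable {n : ℕ} [NeZero n]

theorem abs_EE_le {G : Mat n} (hG : Gen G) {U : Site → ℝ} {D : Set Site} {H : Pol n}
    (hU : ∀ x ∉ D, U x = 0 ∨ U x = 1) {ε : ℝ} (hε : 0 ≤ ε)
    (h : ∀ ζ, -ε ≤ EE H D ζ (DD G U (DD G U H)) +
      (EE H D ζ (DD G U H * DD G U H) - EE H D ζ (DD G U H) ^ 2)) (ζ : Config n) :
    |EE H D ζ (DD G U H)| ≤ 2 * Real.pi * ε := by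
  have hZ := hasDerivAt_II hG U D 1 H ζ
  have hY := hasDerivAt_II hG U D (DD G U H) H ζ
  simp only [Derivation.map_one_eq_zero, zero_add, one_mul, map_one] at hZ
  have hp := fun t => (II_ex_pos D (ev H) (flow hG U t ζ)).ne'
  have e : ∀ t, Real.sin t = 0 → Real.cos t = 1 → ∀ F : C(Config n, ℝ),
      II D F (flow hG U t ζ) = II D F ζ := fun t h1 h2 F => by
    rw [← ind_II D F ζ (flow hG U _ ζ), ← ind_II D F ζ ζ]
    congr 1
    funext x
    by_cases hx : x ∈ D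
    · rw [mix_of_mem hx, mix_of_mem hx]
    · rw [mix_of_notMem hx, mix_of_notMem hx, flow_eq] <;> rcases hU x hx with h3 | h3 <;>
        simp [h1, h2, h3]
  have hm : Monotone fun t => EE H D (flow hG U t ζ) (DD G U H) + ε * t :=
    monotone_of_hasDerivAt_nonneg (fun t => ((hY t).div (hZ t) (hp t)).add
      ((hasDerivAt_id t).const_mul ε)) fun t => by
      have h1 := h (flow hG U t ζ)
      rw [← add_sub_assoc, ← map_add] at h1
      simp only [EE, LinearMap.coe_mk, AddHom.coe_mk, gam_apply] at h1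
      rw [sub_div, sq, mul_div_mul_right _ _ (hp t), mul_div_mul_comm, Pi.zero_apply]
      linarith
  have hc : ∀ s, ContinuousOn (fun t => II D (ex (ev H)) (flow hG U t ζ)) s := fun s t _ =>
    (hZ t).continuousAt.continuousWithinAt
  have h0 := e 0 Real.sin_zero Real.cos_zero
  obtain ⟨t₁, m1, z1⟩ := exists_hasDerivAt_eq_zero Real.two_pi_pos (hc _)
    ((h0 _).trans (e _ Real.sin_two_pi Real.cos_two_pi _).symm) fun t _ => hZ t
  obtain ⟨t₂, m2, z2⟩ := exists_hasDerivAt_eq_zero (neg_lt_zero.mpr Real.two_pi_pos) (hc _)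
    ((e _ (by simp) (by simp) _).trans (h0 _).symm) fun t _ => hZ t
  have h1 := hm m1.1.le
  have h2 := hm m2.2.le
  simp only [EE, LinearMap.coe_mk, AddHom.coe_mk, gam_apply, z1, z2, h0, zero_div] at h1 h2 ⊢
  exact abs_le.mpr ⟨by nlinarith [m2.1], by nlinarith [m1.2]⟩

theorem gam_add {D : Set Site} {H : C(Config n, ℝ)} (hH : Ind D H) (H' F : C(Config n, ℝ)) :
    gam (H + H') D F = gam H' D F := by
  ext ζ
  rw [gam_apply, gam_apply, ex_add, mul_left_comm, II_mul hH.ex, II_mul hH.ex]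
  exact mul_div_mul_left _ _ (Real.exp_pos _).ne'

theorem abs_II_le (D : Set Site) {F G : C(Config n, ℝ)} {c : ℝ} (h : ∀ s, |F s| ≤ c * G s)
    (ζ : Config n) : |II D F ζ| ≤ c * II D G ζ := by
  have h1 := II_mono D (F := F) (G := c • G) (fun s => (abs_le.mp (h s)).2) ζ
  have h2 := II_mono D (F := -(c • G)) (G := F) (fun s => (abs_le.mp (h s)).1) ζ
  rw [map_neg] at h2
  rw [map_smul] at h1 h2
  exact abs_le.mpr ⟨h2, h1⟩

/-- the boundary influence on the central spin of a ball. -/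
def Dec (n : ℕ) [NeZero n] (β : ℝ) (r : ℕ) (δ : ℝ) : Prop :=
  ∀ (𝓔 : Finset Edge) (c : Site) (ζ : Config n) (i : Fin n), Loc 𝓔 c r →
    |EE (Ham 𝓔 β) (closedBall c r) ζ (xv c i)| ≤ δ

theorem dec_one (β : ℝ) (r : ℕ) : Dec n β r 1 := fun _ _ _ _ _ =>
  (state_EE _ _ _).abs_le fun s => by rw [ev_xv]; exact abs_spin_le _ _

theorem dec_step (hn : 3 ≤ n) {β : ℝ} (hβ : 0 ≤ β) {ε : ℝ} (hε : 0 < ε) :
    ∃ r₀ : ℕ, ∀ r, r₀ ≤ r → ∀ δ, Dec n β r δ → Dec n β (6 * r + 6) (ε * δ) := by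
  classical
  obtain ⟨R₀, hR₀⟩ := stiffness (n := n) hβ (ε := ε / (2 * Real.pi)) (by positivity)
  refine ⟨R₀, fun r hr δ hδ 𝓔 c ζ i hL => ?_⟩
  obtain ⟨b, d, h1, h2, h3⟩ : ∃ b d : Fin n, i ≠ b ∧ i ≠ d ∧ b ≠ d := by
    obtain ⟨b, hb⟩ := Finset.exists_mem_notMem_of_card_lt_card (s := {i}) (t := Finset.univ)
      (by simp; omega)
    obtain ⟨d, hd⟩ := Finset.exists_mem_notMem_of_card_lt_card (s := {i, b}) (t := Finset.univ)
      (Finset.card_le_two.trans_lt (by simp; omega))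
    simp only [Finset.mem_insert, Finset.mem_singleton, not_or] at hb hd
    exact ⟨b, d, Ne.symm hb.2, Ne.symm hd.2.1, Ne.symm hd.2.2⟩
  have hT := tri_Lg h1 h2 h3
  have hr0 : (0 : ℝ) ≤ r := by positivity
  have hR : (0 : ℝ) < (2 * (r + 1) : ℕ) := by positivity
  set U := tent (2 * (r + 1) : ℕ) c with hU
  have hJ := abs_EE_le hT.genG (U := U) (D := ann c (2 * (r + 1) : ℕ)) (H := Ham 𝓔 β)
    (fun x hx => by
      rcases not_and_or.mp hx with h4 | h4
      · exact Or.inr (tent_eq_one hR (by linarith))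
      · exact Or.inl (tent_eq_zero hR (by linarith))) (by positivity)
    fun ζ => hR₀ _ (by omega) 𝓔 c _ _ _ _ hT (hL.mono subset_rfl (by push_cast; simp; linarith))
      (state_EE _ _ ζ)
  rw [mul_div_cancel₀ _ (by positivity)] at hJ
  have hW := (state_EE (Ham 𝓔 β) (closedBall c (6 * r + 6 : ℕ)) ζ).ward _ hT.genG U
    (fun x hx => tent_eq_zero hR (by
      have := not_le.mp (mt mem_closedBall.mpr hx)
      push_cast at this ⊢
      linarith)) (xv c b)
  have hx : DD (Lg i b) U (xv c b) = -xv c i := by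
    rw [DD_xv, hU, tent_eq_one hR (by simp; positivity)]
    simp [Lg, Matrix.single_apply, h1]
  have hL' : Loc 𝓔 c r := hL.mono subset_rfl (by push_cast; simp; linarith)
  have i1 : Ind (ann c (2 * (r + 1) : ℕ)) (ev (xv c b) : C(Config n, ℝ)) :=
    (dep_xv (mem_singleton c) b).ind (disjoint_singleton_right.mpr fun h => by
      have := h.1; simp at this; linarith)
  have i2 : Ind (closedBall c r)
      (gam (ev (Ham 𝓔 β)) (ann c (2 * (r + 1) : ℕ)) (ev (DD (Lg i b) U (Ham 𝓔 β)))) := by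
    have e1 : Ham (n := n) 𝓔 β = Ham (𝓔.filter (Touch c r)) β +
        Ham (𝓔.filter fun e => ¬Touch c r e) β := (Finset.sum_filter_add_sum_filter_not _ _ _).symm
    conv => enter [2, 1]; rw [e1, map_add]
    have i3 : Ind (ann c (2 * (r + 1) : ℕ)) (ev (Ham (n := n) (𝓔.filter (Touch c r)) β)) :=
      (dep_Ob (T := closedBall c (r + 1)) fun e he => Or.inr
        (hL'.both (Finset.mem_filter.mp he).1 (Finset.mem_filter.mp he).2)).ind
        (disjoint_left.mpr fun x hx hx' => by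
          have := hx.1
          push_cast at this
          linarith [mem_closedBall.mp hx'])
    rw [gam_add i3, DD_Ham hT.genG]
    refine Ind.gam (Dep.ind (dep_Ob fun e he => ?_) disjoint_compl_right)
      (Dep.ind (dep_Ob fun e he => Or.inr (not_or.mp (Finset.mem_filter.mp he).2))
        disjoint_compl_right) (disjoint_left.mpr fun x hx hx' => ?_)
    · by_cases ht : Touch c r e
      · have := hL'.both he ht
        refine Or.inl ?_
        rw [dd, hU, tent_eq_one hR (by push_cast; linarith),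
          tent_eq_one hR (by push_cast; linarith)]
        simp
      · exact Or.inr (not_or.mp ht)
    · have := hx'.1
      push_cast at this
      linarith [mem_closedBall.mp hx]
  rw [hx, map_neg, neg_inj] at hW
  rw [hW]
  change |gam _ _ _ _| ≤ _
  rw [gam_apply, abs_div, abs_of_pos (II_ex_pos _ _ _), div_le_iff₀ (II_ex_pos _ _ _), map_mul ev,
    tower (fun x hx => by have := hx.2; push_cast at this ⊢; rw [mem_closedBall]; linarith) i1,
    mul_comm (ev _), tower (closedBall_subset_closedBall (by push_cast; linarith)) i2]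
  refine abs_II_le _ (fun s => ?_) _
  rw [ContinuousMap.mul_apply, ContinuousMap.mul_apply, abs_mul, abs_mul,
    abs_of_pos (a := ex _ s) (Real.exp_pos _)]
  exact mul_le_mul_of_nonneg_right (mul_le_mul (hJ s) (hδ 𝓔 c s b hL') (abs_nonneg _) hε.le)
    (Real.exp_pos _).le

theorem exists_dec (hn : 3 ≤ n) {β : ℝ} (hβ : 0 ≤ β) {θ : ℝ} (hθ : 0 < θ) :
    ∃ (r : ℕ) (δ η : ℝ), 0 < η ∧ Dec n β r δ ∧
      (2 * r + 5) ^ 4 * (δ / η ^ 2 + ne (r + 1) * (2 * β * η)) ≤ θ := by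
  set σ : ℝ := 1 / (2 * 6 ^ 6) with hσ
  have hσ0 : 0 < σ := by positivity
  obtain ⟨r₀, h⟩ := dec_step hn hβ (pow_pos hσ0 3)
  have h1 : ∀ k : ℕ, ∃ r : ℕ, r₀ ≤ r ∧ r + 2 ≤ 6 ^ k * (r₀ + 2) ∧ Dec n β r ((σ ^ 3) ^ k) := by
    intro k
    induction k with
    | zero => exact ⟨r₀, le_rfl, by simp, by simpa using dec_one β r₀⟩
    | succ k ih =>
      obtain ⟨r, h1, h2, h3⟩ := ih
      exact ⟨6 * r + 6, by omega, by rw [pow_succ', mul_assoc]; omega,
        pow_succ' (σ ^ 3) k ▸ h r h1 _ h3⟩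
  obtain ⟨k, hk⟩ := exists_pow_lt_of_lt_one
    (x := θ / ((3 * (r₀ + 2)) ^ 6 * (1 + 4 * β))) (y := 1 / 2) (by positivity) (by norm_num)
  obtain ⟨r, -, h2, h3⟩ := h1 k
  refine ⟨r, _, σ ^ k, by positivity, h3, ?_⟩
  have h4 : (2 * r + 5 : ℝ) ≤ 6 ^ k * (3 * (r₀ + 2)) := by
    have : (r + 2 : ℝ) ≤ 6 ^ k * (r₀ + 2) := by exact_mod_cast h2
    linarith [(Nat.cast_nonneg r : (0 : ℝ) ≤ r)]
  have h5 : (1 : ℝ) ≤ (2 * r + 5) ^ 2 := by nlinarith [(Nat.cast_nonneg r : (0 : ℝ) ≤ r)]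
  rw [lt_div_iff₀ (by positivity)] at hk
  calc _ = (2 * r + 5) ^ 4 * (1 + (2 * r + 5) ^ 2 * (4 * β)) * σ ^ k := by
        rw [ne, ← pow_mul, mul_comm 3 k, pow_mul]; push_cast; field_simp; ring
    _ ≤ (2 * r + 5) ^ 4 * ((2 * r + 5) ^ 2 + (2 * r + 5) ^ 2 * (4 * β)) * σ ^ k := by gcongr
    _ = (2 * r + 5) ^ 6 * (1 + 4 * β) * σ ^ k := by ring
    _ ≤ (6 ^ k * (3 * (r₀ + 2))) ^ 6 * (1 + 4 * β) * σ ^ k := by gcongr
    _ = (6 ^ 6 * σ) ^ k * ((3 * (r₀ + 2)) ^ 6 * (1 + 4 * β)) := by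
        rw [mul_pow, mul_pow (6 ^ 6) σ, ← pow_mul, ← pow_mul, mul_comm k]; ring
    _ ≤ _ := by rw [hσ]; norm_num at hk ⊢; exact hk.le

end Vale.Agent.P163
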