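import Mathlib

/-! The two-dimensional O(n) model: finite boxes and infinite-volume states. -/

namespace Vale.Agent.P163

open MeasureTheory Filter Topology
open scoped RealInnerProductSpace

/-- Spins: the unit sphere of Euclidean `n`-space. -/
abbrev Spin (n : ℕ) : Type := Metric.sphere (0 : EuclideanSpace ℝ (Fin n)) 1

/-- Spin configurations on the square lattice. -/
abbrev Config (n : ℕ) : Type := ℤ × ℤ → Spin n

/-- The normalised uniform measure on the sphere. -/
noncomputable def unif (n : ℕ) : Measure (Spin n) :=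
  ((volume : Measure (EuclideanSpace ℝ (Fin n))).toSphere Set.univ)⁻¹ •
    (volume : Measure (EuclideanSpace ℝ (Fin n))).toSphere

/-- The box with lower left corner `lo` and upper right corner `hi`. -/
noncomputable def box (lo hi : ℤ × ℤ) : Finset (ℤ × ℤ) :=
  Finset.Icc lo.1 hi.1 ×ˢ Finset.Icc lo.2 hi.2

/-- The bonds of the box, each listed once; for `periodic = true` also the wrap-around bonds. -/
noncomputable def bonds (lo hi : ℤ × ℤ) (periodic : Bool) :
    Finset ((ℤ × ℤ) × (ℤ × ℤ)) :=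
  (box lo hi ×ˢ box lo hi).filter fun e =>
    e.2 = (e.1.1 + 1, e.1.2) ∨ e.2 = (e.1.1, e.1.2 + 1) ∨
      (periodic = true ∧
        ((e.1.1 = hi.1 ∧ e.2 = (lo.1, e.1.2)) ∨ (e.1.2 = hi.2 ∧ e.2 = (e.1.1, lo.2))))

/-- The finite-volume measure; spins outside the box are independent and uniform. -/
noncomputable def gibbs (n : ℕ) (β : ℝ) (lo hi : ℤ × ℤ) (periodic : Bool) : Measure (Config n) :=
  (Measure.infinitePi fun _ : ℤ × ℤ => unif n).tilted fun σ =>
    β * ∑ e ∈ bonds lo hi periodic,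
      ⟪(σ e.1 : EuclideanSpace ℝ (Fin n)), (σ e.2 : EuclideanSpace ℝ (Fin n))⟫

/-- Local weak limits of finite-volume measures along boxes exhausting the lattice. -/
def IsInfiniteVolumeState (n : ℕ) (β : ℝ) (μ : Measure (Config n)) : Prop :=
  IsProbabilityMeasure μ ∧ ∃ (lo hi : ℕ → ℤ × ℤ) (periodic : ℕ → Bool),
    (∀ x, ∀ᶠ k in atTop, x ∈ box (lo k) (hi k)) ∧
    ∀ (Δ : Finset (ℤ × ℤ)) (f : (Δ → Spin n) → ℝ), Continuous f →
      Tendsto (fun k => ∫ σ, f (Δ.restrict σ) ∂gibbs n β (lo k) (hi k) (periodic k)) atTop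
        (𝓝 (∫ σ, f (Δ.restrict σ) ∂μ))

end Vale.Agent.P163
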