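import Vale.Agent.P163.Calc

/-! Edge observables and the consequences of the Ward identity. -/

namespace Vale.Agent.P163

open Set Function
open scoped Matrix

variable {n : ℕ}

/-- oriented edges. -/
abbrev Edge : Type := Site × Site

/-- the bilinear observable of an edge. -/
noncomputable def qq (x y : Site) : Mat n →ₗ[ℝ] Pol n where
  toFun M := ∑ i, ∑ j, M i j • (xv x i * xv y j)
  map_add' M N := by simp [add_smul, Finset.sum_add_distrib]
  map_smul' c M := by simp [Finset.smul_sum, mul_smul]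

theorem qq_apply (x y : Site) (M : Mat n) :
    qq x y M = ∑ i, ∑ j, M i j • (xv x i * xv y j) := rfl

/-- sums of edge observables. -/
noncomputable def Ob (𝓔 : Finset Edge) (M : Edge → Mat n) : Pol n := ∑ e ∈ 𝓔, qq e.1 e.2 (M e)

/-- the action of an infinitesimal rotation on edge matrices. -/
def am (A : Mat n) (a : Site → ℝ) (M : Edge → Mat n) (e : Edge) : Mat n :=
  a e.2 • (M e * A) - a e.1 • (A * M e)

/-- the gradient along an edge. -/
def dd (a : Site → ℝ) (e : Edge) : ℝ := a e.2 - a e.1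

theorem DD_qq {A : Mat n} (hA : Gen A) (a : Site → ℝ) (x y : Site) (M : Mat n) :
    DD A a (qq x y M) = qq x y (a y • (M * A) - a x • (A * M)) := by
  have h : ∀ i k, A i k = -A k i := fun i k => congrFun (congrFun hA.skew k) i
  rw [map_sub, map_smul, map_smul, sub_eq_add_neg]
  simp only [qq_apply, map_sum, Derivation.map_smul, Derivation.leibniz, DD_xv, smul_add,
    Finset.sum_add_distrib, Matrix.mul_apply, Finset.sum_smul, Finset.smul_sum, smul_eq_mul,
    Finset.mul_sum, mul_smul_comm, smul_smul, ← Finset.sum_neg_distrib, ← neg_smul]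
  refine congrArg₂ (· + ·) ?_ ?_
  · refine Finset.sum_congr rfl fun i _ => ?_
    rw [Finset.sum_comm]
    refine Finset.sum_congr rfl fun k _ => Finset.sum_congr rfl fun j _ => ?_
    congr 1; ring
  · refine Finset.sum_comm.trans ((Finset.sum_congr rfl fun j _ => Finset.sum_comm).trans
      (Finset.sum_comm.trans (Finset.sum_congr rfl fun k _ => Finset.sum_congr rfl fun j _ =>
        Finset.sum_congr rfl fun i _ => ?_)))
    rw [h i k, mul_comm (xv y j)]
    congr 1; ring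

theorem DD_Ob {A : Mat n} (hA : Gen A) (a : Site → ℝ) (𝓔 : Finset Edge) (M : Edge → Mat n) :
    DD A a (Ob 𝓔 M) = Ob 𝓔 (am A a M) := by
  simp only [Ob, map_sum, DD_qq hA, am]

theorem Ob_congr {𝓔 : Finset Edge} {M N : Edge → Mat n} (h : ∀ e ∈ 𝓔, M e = N e) :
    Ob 𝓔 M = Ob 𝓔 N := Finset.sum_congr rfl fun e he => by rw [h e he]

theorem dep_qq {T : Set Site} {x y : Site} (hx : x ∈ T) (hy : y ∈ T) (M : Mat n) :
    Dep T (qq x y M) := by
  rw [qq_apply]
  exact Subalgebra.sum_mem _ fun i _ => Subalgebra.sum_mem _ fun j _ =>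
    Subalgebra.smul_mem _ (Subalgebra.mul_mem _ (dep_xv hx i) (dep_xv hy j)) _

theorem dep_Ob {T : Set Site} {𝓔 : Finset Edge} {M : Edge → Mat n}
    (h : ∀ e ∈ 𝓔, M e = 0 ∨ (e.1 ∈ T ∧ e.2 ∈ T)) : Dep T (Ob 𝓔 M) :=
  Subalgebra.sum_mem _ fun e he => (h e he).elim
    (fun h0 => by rw [h0, map_zero]; exact Subalgebra.zero_mem _) fun h1 => dep_qq h1.1 h1.2 _

/-- uniform bounds on observables. -/
def Bd (p : Pol n) (c : ℝ) : Prop := ∀ s, |ev p s| ≤ c

/-- entrywise bounds. -/
def EB (M : Mat n) (μ : ℝ) : Prop := ∀ i j, |M i j| ≤ μ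

theorem abs_spin_le (s : Spin n) (i : Fin n) : |s.1 i| ≤ 1 :=
  (PiLp.norm_apply_le s.1 i).trans_eq (by simp)

theorem Bd.mono {p : Pol n} {c c' : ℝ} (h : Bd p c) (hc : c ≤ c') : Bd p c' :=
  fun s => (h s).trans hc

theorem Bd.add {p q : Pol n} {c c' : ℝ} (h : Bd p c) (h' : Bd q c') : Bd (p + q) (c + c') :=
  fun s => by rw [map_add]; exact (abs_add_le _ _).trans (add_le_add (h s) (h' s))

theorem Bd.sub {p q : Pol n} {c c' : ℝ} (h : Bd p c) (h' : Bd q c') : Bd (p - q) (c + c') :=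
  fun s => by rw [map_sub]; exact (abs_sub _ _).trans (add_le_add (h s) (h' s))

theorem Bd.mul {p q : Pol n} {c c' : ℝ} (h : Bd p c) (h' : Bd q c') : Bd (p * q) (c * c') :=
  fun s => by
    rw [map_mul, ContinuousMap.mul_apply, abs_mul]
    exact mul_le_mul (h s) (h' s) (abs_nonneg _) ((abs_nonneg _).trans (h s))

theorem Bd.smul {p : Pol n} {c r : ℝ} (h : Bd p c) (h0 : 0 ≤ r) (h1 : r ≤ 1) : Bd (r • p) c :=
  fun s => by
    rw [map_smul, ContinuousMap.smul_apply, smul_eq_mul, abs_mul, abs_of_nonneg h0]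
    exact (mul_le_of_le_one_left (abs_nonneg _) h1).trans (h s)

theorem bd_qq (x y : Site) {M : Mat n} {μ : ℝ} (h : EB M μ) : Bd (qq x y M) (n ^ 2 * μ) := by
  intro s
  simp only [qq_apply, map_sum, map_smul, map_mul, ContinuousMap.sum_apply,
    ContinuousMap.smul_apply, ContinuousMap.mul_apply, ev_xv, smul_eq_mul]
  calc _ ≤ ∑ _i : Fin n, ∑ _j : Fin n, μ := (Finset.abs_sum_le_sum_abs _ _).trans
        (Finset.sum_le_sum fun i _ => (Finset.abs_sum_le_sum_abs _ _).trans
          (Finset.sum_le_sum fun j _ => by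
            rw [abs_mul, abs_mul]
            exact (mul_le_of_le_one_right (abs_nonneg _) (mul_le_one₀ (abs_spin_le _ _)
              (abs_nonneg _) (abs_spin_le _ _))).trans (h i j)))
    _ = _ := by simp; ring

theorem bd_Ob {𝓔 : Finset Edge} {M : Edge → Mat n} {μ : Edge → ℝ} (h : ∀ e ∈ 𝓔, EB (M e) (μ e)) :
    Bd (Ob 𝓔 M) (n ^ 2 * ∑ e ∈ 𝓔, μ e) := by
  intro s
  rw [Ob, map_sum, ContinuousMap.sum_apply, Finset.mul_sum]
  exact (Finset.abs_sum_le_sum_abs _ _).trans (Finset.sum_le_sum fun e he => bd_qq _ _ (h e he) s)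

theorem EB.mono {M : Mat n} {μ μ' : ℝ} (h : EB M μ) (h' : μ ≤ μ') : EB M μ' :=
  fun i j => (h i j).trans h'

theorem EB.smul {M : Mat n} {μ : ℝ} (h : EB M μ) (c : ℝ) : EB (c • M) (|c| * μ) := fun i j => by
  rw [Matrix.smul_apply, smul_eq_mul, abs_mul]
  exact mul_le_mul_of_nonneg_left (h i j) (abs_nonneg _)

theorem EB.add {M N : Mat n} {μ ν : ℝ} (h : EB M μ) (h' : EB N ν) : EB (M + N) (μ + ν) :=
  fun i j => (abs_add_le _ _).trans (add_le_add (h i j) (h' i j))

theorem EB.mul {M N : Mat n} {μ ν : ℝ} (h : EB M μ) (h' : EB N ν) : EB (M * N) (n * (μ * ν)) :=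
  fun i j => by
    rw [Matrix.mul_apply]
    refine (Finset.abs_sum_le_sum_abs _ _).trans ((Finset.sum_le_card_nsmul _ _ (μ * ν)
      fun k _ => ?_).trans_eq (by simp))
    rw [abs_mul]
    exact mul_le_mul (h i k) (h' k j) (abs_nonneg _) ((abs_nonneg _).trans (h i k))

theorem EB.am {A : Mat n} (hA : Gen A) {a : Site → ℝ} {M : Edge → Mat n} {e : Edge} {μ α : ℝ}
    (h : EB (M e) μ) (h1 : |a e.1| ≤ α) (h2 : |a e.2| ≤ α) : EB (am A a M e) (2 * n * α * μ) :=
  fun i j => by
    have hμ : 0 ≤ μ := (abs_nonneg _).trans (h i j)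
    have h3 := (h.mul hA.bd).smul (a e.2) i j
    have h4 := (EB.mul hA.bd h).smul (a e.1) i j
    refine (abs_sub _ _).trans ((add_le_add h3 h4).trans ?_)
    calc _ ≤ α * (n * (μ * 1)) + α * (n * (1 * μ)) := by gcongr
      _ = _ := by ring

/-- the energy. -/
noncomputable def Ham (𝓔 : Finset Edge) (β : ℝ) : Pol n := Ob 𝓔 fun _ => β • 1

theorem DD_Ham {A : Mat n} (hA : Gen A) (a : Site → ℝ) (𝓔 : Finset Edge) (β : ℝ) :
    DD A a (Ham 𝓔 β) = Ob 𝓔 fun e => (β * dd a e) • A := by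
  rw [Ham, DD_Ob hA]
  refine Ob_congr fun e _ => ?_
  simp only [am, dd, smul_mul_assoc, mul_smul_comm, one_mul, mul_one]
  module

theorem bd_DD_DD_Ham {A : Mat n} (hA : Gen A) (a : Site → ℝ) (𝓔 : Finset Edge) {β : ℝ}
    (hβ : 0 ≤ β) : Bd (DD A a (DD A a (Ham 𝓔 β))) (n ^ 3 * β * ∑ e ∈ 𝓔, dd a e ^ 2) := by
  rw [DD_Ham hA, DD_Ob hA]
  refine (bd_Ob (μ := fun e => n * β * dd a e ^ 2) fun e _ => ?_).mono (le_of_eq ?_)
  · have : am A a (fun e => (β * dd a e) • A) e = (β * dd a e ^ 2) • (A * A) := by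
      simp only [am, dd, smul_mul_assoc, mul_smul_comm]
      module
    rw [this]
    refine ((EB.mul hA.bd hA.bd).smul _).mono (le_of_eq ?_)
    rw [abs_of_nonneg (by positivity)]
    ring
  · rw [← Finset.mul_sum]; ring

/-- the score. -/
noncomputable def Sig (A B : Mat n) (H : Pol n) (u v : Site → ℝ) : Pol n :=
  DD A u (DD B v H) + DD A u H * DD B v H

namespace State

variable {H : Pol n} {D : Set Site} {E : Pol n →ₗ[ℝ] ℝ} (hE : State H D E)
include hE

theorem le_mul {p q : Pol n} {c : ℝ} (h : ∀ s, ev p s ≤ c * ev q s) : E p ≤ c * E q := by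
  rw [← smul_eq_mul, ← map_smul]
  exact hE.mono _ _ fun s => by simpa using h s

theorem abs_le {p : Pol n} {c : ℝ} (h : Bd p c) : |E p| ≤ c := by
  have h1 := hE.le_mul (p := p) (q := 1) (c := c) fun s => by simpa using (_root_.abs_le.mp (h s)).2
  have h2 := hE.le_mul (p := -p) (q := 1) (c := c) fun s => by
    simpa [neg_le] using (_root_.abs_le.mp (h s)).1
  rw [hE.one, mul_one] at h1 h2
  rw [map_neg] at h2
  exact _root_.abs_le.mpr ⟨by linarith, h1⟩

theorem sq_nonneg (p : Pol n) : 0 ≤ E (p * p) := by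
  simpa using hE.mono 0 (p * p) fun s => by simpa using mul_self_nonneg _

theorem cs (p q : Pol n) : E (p * q) ^ 2 ≤ E (p * p) * E (q * q) := by
  have := discrim_le_zero (a := E (p * p)) (b := 2 * E (p * q)) (c := E (q * q)) fun t => by
    have h := hE.sq_nonneg (t • p + q)
    simp only [add_mul, mul_add, smul_mul_assoc, mul_smul_comm, map_add, map_smul, smul_eq_mul,
      mul_comm q p] at h
    linarith
  rw [discrim] at this
  linarith

theorem two_mul_le (p q : Pol n) : 2 * E (p * q) ≤ E (p * p) + E (q * q) := by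
  have h := hE.sq_nonneg (p - q)
  simp only [sub_mul, mul_sub, map_sub, mul_comm q p] at h
  linarith

variable {A B : Mat n} (hA : Gen A) {u v : Site → ℝ} (hu : ∀ x ∉ D, u x = 0)
include hA hu

theorem sq_le {g : ℝ} (h : Bd (DD A u (DD A u H)) g) : E (DD A u H * DD A u H) ≤ g := by
  have h1 := hE.ward A hA u hu (DD A u H)
  linarith [(_root_.abs_le.mp (hE.abs_le h)).1]

theorem four_le {g : ℝ} (h : Bd (DD A u (DD A u H)) g) :
    E (DD A u H * DD A u H * (DD A u H * DD A u H)) ≤ 3 * g ^ 2 := by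
  set S := DD A u H with hS
  have h1 := hE.ward A hA u hu (S * (S * S))
  have h2 := hE.le_mul (p := -DD A u (S * (S * S))) (q := S * S) (c := 3 * g) fun s => by
    simp only [Derivation.leibniz, smul_eq_mul, map_neg, map_add, map_mul,
      ContinuousMap.neg_apply, ContinuousMap.add_apply, ContinuousMap.mul_apply]
    nlinarith [(_root_.abs_le.mp (h s)).1, mul_self_nonneg (ev S s)]
  have h3 := hE.sq_le hA hu h
  have h4 : 0 ≤ g := (hE.sq_nonneg S).trans h3
  rw [map_neg, h1, neg_neg, ← hS, show S * (S * S) * S = S * S * (S * S) by ring] at h2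
  nlinarith

theorem mw {κ c : ℝ} (hκ : 0 ≤ κ) (h : Bd (DD A u (DD A u H)) (κ ^ 2)) {W : Pol n} (hW : Bd W c) :
    |E (DD A u W)| ≤ c * κ := by
  have h1 := (le_abs_self _).trans (hE.abs_le (hW.mul hW))
  have hc : 0 ≤ c * c := mul_self_nonneg c
  rw [hE.ward A hA u hu, abs_neg]
  by_cases h2 : 0 ≤ c
  · refine abs_le_of_sq_le_sq' ((hE.cs _ _).trans ?_) (by positivity) |> _root_.abs_le.mpr
    calc _ ≤ c * c * κ ^ 2 := mul_le_mul h1 (hE.sq_le hA hu h) (hE.sq_nonneg _) hc
      _ = _ := by ring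
  · have := hE.abs_le hW
    exact absurd ((abs_nonneg _).trans this) h2

variable (hB : Gen B) (hv : ∀ x ∉ D, v x = 0)
include hB hv

theorem sig_ward (F : Pol n) : E (Sig A B H u v * F) = E (DD B v (DD A u F)) := by
  have h1 := hE.ward B hB v hv (DD A u F)
  have h2 := hE.ward A hA u hu (DD B v H * F)
  rw [Derivation.leibniz, map_add, smul_eq_mul, smul_eq_mul] at h2
  rw [Sig, add_mul, map_add, h1, mul_comm (DD A u F), mul_comm _ F,
    show DD A u H * DD B v H * F = DD B v H * F * DD A u H by ring]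
  linarith

theorem sig_sq {g g' τ : ℝ} (h1 : Bd (DD A u (DD A u H)) g) (h2 : Bd (DD B v (DD B v H)) g')
    (h3 : Bd (DD B v (DD A u (DD A u (DD B v H)))) τ) :
    E (Sig A B H u v * Sig A B H u v) ≤ 2 * τ + 3 * g * g' := by
  have h4 := hE.sig_ward hA hu hB hv (DD A u (DD B v H))
  have h5 := hE.two_mul_le (Sig A B H u v) (DD A u H * DD B v H)
  have h6 := hE.cs (DD A u H * DD A u H) (DD B v H * DD B v H)
  have g0 : 0 ≤ g := (hE.sq_nonneg _).trans (hE.sq_le hA hu h1)
  have g1 : 0 ≤ g' := (hE.sq_nonneg _).trans (hE.sq_le hB hv h2)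
  have h7 := (abs_le_of_sq_le_sq' (h6.trans ((mul_le_mul (hE.four_le hA hu h1)
    (hE.four_le hB hv h2) (hE.sq_nonneg _) (by positivity)).trans_eq
    (by ring : _ = (3 * g * g') ^ 2))) (by positivity)).2
  have h8 : E (Sig A B H u v * Sig A B H u v) = E (Sig A B H u v * DD A u (DD B v H)) +
      E (Sig A B H u v * (DD A u H * DD B v H)) := by rw [← map_add, ← mul_add]; rfl
  rw [show DD A u H * DD B v H * (DD A u H * DD B v H) =
    DD A u H * DD A u H * (DD B v H * DD B v H) by ring] at h5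
  linarith [(_root_.abs_le.mp (hE.abs_le h3)).2]

end State

end Vale.Agent.P163
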