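import Vale.Agent.P163.Decay

/-! The random-cluster representation of the sign of one spin component. -/

namespace Vale.Agent.P163

open Set Function Metric MeasureTheory
open scoped Matrix

variable {n : ℕ}

/-- the product of the chosen components. -/
noncomputable def uu (a : Fin n) (e : Edge) : C(Config n, ℝ) := ev (xv e.1 a * xv e.2 a)

/-- the remaining part of the scalar product. -/
noncomputable def rs (a : Fin n) (e : Edge) : C(Config n, ℝ) :=
  ev (∑ i ∈ Finset.univ.erase a, xv e.1 i * xv e.2 i)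

/-- the weight of a closed edge. -/
noncomputable def cw (β : ℝ) (a : Fin n) (e : Edge) : C(Config n, ℝ) := ex (β • (rs a e - |uu a e|))

/-- the weight of an open edge. -/
noncomputable def ow (β : ℝ) (a : Fin n) (e : Edge) : C(Config n, ℝ) :=
  ex (β • (rs a e + uu a e)) - cw β a e

/-- the joint weight of spins and open edges. -/
noncomputable def wt (β : ℝ) (a : Fin n) (𝓔 ω : Finset Edge) : C(Config n, ℝ) :=
  (∏ e ∈ ω, ow β a e) * ∏ e ∈ 𝓔 \ ω, cw β a e

open Classical in
/-- the weight of an event. -/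
noncomputable def Wf (β : ℝ) (a : Fin n) (𝓔 : Finset Edge) (A : Finset Edge → Prop) :
    C(Config n, ℝ) := ∑ ω ∈ 𝓔.powerset, if A ω then wt β a 𝓔 ω else 0

/-- connection by open edges. -/
def Conn (ω : Finset Edge) : Site → Site → Prop :=
  Relation.ReflTransGen fun u v => (u, v) ∈ ω ∨ (v, u) ∈ ω

variable {β : ℝ} {a : Fin n} {𝓔 : Finset Edge} {A : Finset Edge → Prop}

theorem uu_apply (e : Edge) (s : Config n) : uu a e s = (s e.1).1 a * (s e.2).1 a := by simp [uu]

theorem rs_apply (e : Edge) (s : Config n) :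
    rs a e s = ∑ i ∈ Finset.univ.erase a, (s e.1).1 i * (s e.2).1 i := by
  simp only [rs, map_sum, map_mul, ContinuousMap.sum_apply, ContinuousMap.mul_apply, ev_xv]

theorem cw_apply (e : Edge) (s : Config n) :
    cw β a e s = Real.exp (β * (rs a e s - |uu a e s|)) := rfl

theorem ow_apply (e : Edge) (s : Config n) :
    ow β a e s = Real.exp (β * (rs a e s + uu a e s)) - cw β a e s := rfl

theorem wt_apply (ω : Finset Edge) (s : Config n) :
    wt β a 𝓔 ω s = (∏ e ∈ ω, ow β a e s) * ∏ e ∈ 𝓔 \ ω, cw β a e s := by simp [wt]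

open Classical in
theorem Wf_apply (s : Config n) :
    Wf β a 𝓔 A s = ∑ ω ∈ 𝓔.powerset, if A ω then wt β a 𝓔 ω s else 0 := by
  simp only [Wf, ContinuousMap.sum_apply]
  congr! 1
  split_ifs <;> rfl

theorem ev_qq_one (x y : Site) (s : Config n) :
    ev (qq x y (β • 1)) s = β * ∑ i, (s x).1 i * (s y).1 i := by
  simp [qq_apply, Matrix.one_apply]

theorem cw_add_ow (e : Edge) : cw β a e + ow β a e = ex (ev (qq e.1 e.2 (β • 1))) := by
  ext s
  rw [ContinuousMap.add_apply, ow_apply, add_sub_cancel, rs_apply, uu_apply,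
    Finset.sum_erase_add _ _ (Finset.mem_univ a), ← ev_qq_one]
  rfl

theorem ow_nonneg (hβ : 0 ≤ β) (e : Edge) (s : Config n) : 0 ≤ ow β a e s :=
  sub_nonneg.mpr (Real.exp_le_exp.mpr (mul_le_mul_of_nonneg_left
    (add_le_add_right (neg_abs_le (uu a e s)) _) hβ))

theorem ow_le (hβ : 0 ≤ β) {e : Edge} {s : Config n} {η : ℝ} (h : |uu a e s| ≤ η) :
    ow β a e s ≤ 2 * β * η * (cw β a e s + ow β a e s) := by
  rw [ow_apply, add_sub_cancel, cw_apply, show β * (rs a e s - |uu a e s|) =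
    β * (rs a e s + uu a e s) + -(β * (uu a e s + |uu a e s|)) by ring, Real.exp_add]
  have h1 := Real.add_one_le_exp (-(β * (uu a e s + |uu a e s|)))
  have h2 : β * (uu a e s + |uu a e s|) ≤ β * (2 * η) := by
    gcongr; linarith [le_abs_self (uu a e s)]
  nlinarith [Real.exp_pos (β * (rs a e s + uu a e s))]

theorem pos_of_ow {e : Edge} {s : Config n} (h : ow β a e s ≠ 0) : 0 < uu a e s :=
  not_le.mp fun h1 => h (by rw [ow_apply, cw_apply, abs_of_nonpos h1, sub_neg_eq_add, sub_self])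

theorem wt_nonneg (hβ : 0 ≤ β) (ω : Finset Edge) (s : Config n) : 0 ≤ wt β a 𝓔 ω s :=
  wt_apply ω s ▸ mul_nonneg (Finset.prod_nonneg fun e _ => ow_nonneg hβ e s)
    (Finset.prod_nonneg fun _ _ => (Real.exp_pos _).le)

theorem Wf_nonneg (hβ : 0 ≤ β) (s : Config n) : 0 ≤ Wf β a 𝓔 A s :=
  Wf_apply s ▸ Finset.sum_nonneg fun ω _ => by split_ifs; exacts [wt_nonneg hβ ω s, le_rfl]

theorem Wf_le_sum (hβ : 0 ≤ β) {ι : Type*} {I : Finset ι} {B : ι → Finset Edge → Prop}
    (h : ∀ ω ⊆ 𝓔, A ω → ∃ i ∈ I, B i ω) (s : Config n) :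
    Wf β a 𝓔 A s ≤ ∑ i ∈ I, Wf β a 𝓔 (B i) s := by
  simp only [Wf_apply]
  rw [Finset.sum_comm]
  refine Finset.sum_le_sum fun ω hω => ?_
  have h0 : ∀ i ∈ I, 0 ≤ @ite _ (B i ω) (Classical.dec _) (wt β a 𝓔 ω s) 0 := fun i _ => by
    split_ifs; exacts [wt_nonneg hβ ω s, le_rfl]
  split_ifs with h1
  · obtain ⟨i, hi, h2⟩ := h ω (Finset.mem_powerset.mp hω) h1
    exact (if_pos h2).ge.trans (Finset.single_le_sum h0 hi)
  · exact Finset.sum_nonneg h0

theorem Wf_insert {e : Edge} (he : e ∉ 𝓔) : Wf β a (insert e 𝓔) A =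
    cw β a e * Wf β a 𝓔 A + ow β a e * Wf β a 𝓔 fun ω => A (insert e ω) := by
  rw [Wf, Finset.sum_powerset_insert he, Wf, Wf, Finset.mul_sum, Finset.mul_sum]
  congr 1 <;> refine Finset.sum_congr rfl fun ω hω => ?_ <;>
    have h1 : e ∉ ω := mt (fun h => Finset.mem_powerset.mp hω h) he <;> split_ifs
  · rw [wt, wt, Finset.insert_sdiff_of_notMem _ h1, Finset.prod_insert (by simp [he])]; ring
  · simp
  · rw [wt, wt, Finset.insert_sdiff_insert, Finset.sdiff_insert_of_notMem he,
      Finset.prod_insert h1, mul_assoc]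
  · simp

theorem Wf_union {F : Finset Edge} (hF : Disjoint F 𝓔) (hA : ∀ e ∈ F, ∀ ω, A (insert e ω) ↔ A ω) :
    Wf β a (F ∪ 𝓔) A = ex (ev (Ham F β)) * Wf β a 𝓔 A := by
  induction F using Finset.induction_on with
  | empty => ext s; simp [Ham, Ob, ex]
  | insert e F he ih =>
    rw [Finset.disjoint_insert_left] at hF
    rw [Finset.insert_union, Wf_insert (by simp [he, hF.1]),
      funext fun ω => propext (hA e (Finset.mem_insert_self _ _) ω), ← add_mul, cw_add_ow,
      ih hF.2 fun e he => hA e (Finset.mem_insert_of_mem he), ← mul_assoc, ← ex_add, ← map_add,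
      Ham, Ham, Ob, Ob, Finset.sum_insert he]

theorem Wf_true : Wf β a 𝓔 (fun _ => True) = ex (ev (Ham 𝓔 β)) := by
  have := Wf_union (β := β) (a := a) (A := fun _ => True) (Finset.disjoint_empty_right 𝓔) (by simp)
  rw [Finset.union_empty] at this
  rw [this]
  simp [Wf, wt]

theorem Wf_open (hβ : 0 ≤ β) {e : Edge} (he : e ∈ 𝓔) (hA : ∀ ω, A (insert e ω) ↔ A ω)
    {s : Config n} {η : ℝ} (h : |uu a e s| ≤ η) :
    Wf β a 𝓔 (fun ω => e ∈ ω ∧ A ω) s ≤ 2 * β * η * Wf β a 𝓔 A s := by
  have h0 : Wf β a (𝓔.erase e) (fun ω => e ∈ ω ∧ A ω) = 0 := Finset.sum_eq_zero fun ω hω =>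
    if_neg fun h1 => Finset.notMem_erase e 𝓔 (Finset.mem_powerset.mp hω h1.1)
  rw [← Finset.insert_erase he, Wf_insert (Finset.notMem_erase _ _),
    Wf_insert (Finset.notMem_erase _ _), h0]
  simp only [hA, Finset.mem_insert_self, true_and, mul_zero, zero_add, ← add_mul,
    ContinuousMap.mul_apply, ← mul_assoc]
  exact mul_le_mul_of_nonneg_right (ow_le hβ h) (Wf_nonneg hβ s)

theorem ind_Wf {D : Set Site} (h : ∀ e ∈ 𝓔, e.1 ∉ D ∧ e.2 ∉ D) : Ind D (Wf β a 𝓔 A) := by
  intro s ζ
  have h1 : ∀ e ∈ 𝓔, cw β a e (mix D s ζ) = cw β a e ζ ∧ ow β a e (mix D s ζ) = ow β a e ζ :=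
    fun e he => by simp only [ow_apply, cw_apply, rs_apply, uu_apply, mix_of_notMem (h e he).1,
      mix_of_notMem (h e he).2, and_self]
  simp only [Wf_apply, wt_apply]
  refine Finset.sum_congr rfl fun ω hω => ?_
  rw [Finset.prod_congr rfl fun e he => (h1 e (Finset.mem_powerset.mp hω he)).2,
    Finset.prod_congr rfl fun e he => (h1 e (Finset.mem_sdiff.mp he).1).1]

theorem Conn.sign {ω : Finset Edge} {z y : Site} (h : Conn ω z y) {s : Config n}
    (hs : ∀ e ∈ ω, 0 < uu a e s) : 0 ≤ uu a (z, y) s := by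
  simp only [uu_apply] at hs ⊢
  induction h with
  | refl => exact mul_self_nonneg _
  | @tail v w _ h ih =>
    have h1 : 0 < (s v).1 a * (s w).1 a := h.elim (hs _) fun h => (hs _ h).trans_eq (mul_comm _ _)
    by_contra! h2
    linarith [mul_neg_of_neg_of_pos h2 h1, mul_nonneg ih (mul_self_nonneg ((s w).1 a))]

variable [NeZero n]

theorem II_univ (F : C(Config n, ℝ)) (ζ : Config n) : II univ F ζ = ∫ s, F s ∂PP n := by
  rw [II_apply]
  congr! 3 with s
  exact funext fun x => mix_of_mem (mem_univ x) _ _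

theorem II_flip {ω : Finset Edge} {z y : Site} (h : ¬Conn ω z y) (ζ : Config n) :
    II univ (uu a (z, y) * wt β a 𝓔 ω) ζ = 0 := by
  classical
  let τ : Site → ℝ := fun x => if Conn ω z x then -1 else 1
  have h1 : ∀ x, |τ x| = 1 := fun x => by simp only [τ]; split_ifs <;> simp
  have h2 : ∀ x, τ x * τ x = 1 := fun x => by rw [← abs_mul_abs_self, h1, mul_one]
  have hO : ∀ x, (Matrix.diagonal fun i => if i = a then τ x else 1)ᵀ *
      (Matrix.diagonal fun i => if i = a then τ x else 1) = 1 := fun x => by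
    rw [Matrix.diagonal_transpose, Matrix.diagonal_mul_diagonal, ← Matrix.diagonal_one]
    congr 1
    funext i
    split_ifs <;> simp [h2]
  have h3 : ∀ s x i, (act _ hO s x).1 i = (if i = a then τ x else 1) * (s x).1 i :=
    fun s x i => by rw [act_apply, Matrix.mulVec_diagonal]
  have h4 : ∀ s e, uu a e (act _ hO s) = τ e.1 * τ e.2 * uu a e s := fun s e => by
    simp only [uu_apply, h3, if_true]; ring
  have h5 : ∀ s e, rs a e (act _ hO s) = rs a e s := fun s e => by
    simp only [rs_apply, h3]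
    exact Finset.sum_congr rfl fun i hi => by simp [(Finset.mem_erase.mp hi).1]
  have h6 : ∀ s e, cw β a e (act _ hO s) = cw β a e s := fun s e => by
    simp only [cw_apply, h4, h5, abs_mul, h1, one_mul]
  have h7 : ∀ s, ∀ e ∈ ω, ow β a e (act _ hO s) = ow β a e s := fun s e he => by
    have : τ e.1 = τ e.2 := if_congr ⟨fun h => h.tail (Or.inl he), fun h => h.tail (Or.inr he)⟩
      rfl rfl
    simp only [ow_apply, h4, h5, h6, this, h2, one_mul]
  have h8 := integral_map (μ := PP n) (continuous_act _ hO).measurable.aemeasurable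
    (map_continuous (uu a (z, y) * wt β a 𝓔 ω)).aestronglyMeasurable
  have h9 : ∀ s, (uu a (z, y) * wt β a 𝓔 ω) (act _ hO s) = -(uu a (z, y) * wt β a 𝓔 ω) s :=
    fun s => by
      simp only [ContinuousMap.mul_apply, wt_apply, h4, h6, Finset.prod_congr rfl (h7 s), τ,
        if_neg h, if_pos (show Conn ω z z from .refl)]
      ring
  rw [(measurePreserving_act _ hO).map_eq, funext h9, integral_neg] at h8
  rw [II_univ]
  linarith

theorem fk (z y : Site) (ζ : Config n) : II univ (uu a (z, y) * Wf β a 𝓔 A) ζ =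
    II univ (|uu a (z, y)| * Wf β a 𝓔 fun ω => Conn ω z y ∧ A ω) ζ := by
  simp only [Wf, Finset.mul_sum, map_sum, ContinuousMap.sum_apply]
  refine Finset.sum_congr rfl fun ω _ => ?_
  by_cases h1 : A ω
  · by_cases h2 : Conn ω z y
    · rw [if_pos h1, if_pos ⟨h2, h1⟩]
      congr 2
      ext s
      by_cases h3 : ∀ e ∈ ω, ow β a e s ≠ 0
      · rw [ContinuousMap.mul_apply, ContinuousMap.mul_apply, ContinuousMap.abs_apply,
          abs_of_nonneg (h2.sign fun e he => pos_of_ow (h3 e he))]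
      · push Not at h3
        obtain ⟨e, he, h3⟩ := h3
        simp [wt_apply, Finset.prod_eq_zero (f := (ow β a · s)) he h3]
    · simp [h1, h2, II_flip h2]
  · simp [h1]

end Vale.Agent.P163
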