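import Vale.Agent.P163.Edge

/-! Lattice geometry and cut-off functions. -/

namespace Vale.Agent.P163

open Set Function

/-- sup-norm balls. -/
noncomputable def ball (z : Site) (r : ℕ) : Finset Site :=
  Finset.Icc (z.1 - r) (z.1 + r) ×ˢ Finset.Icc (z.2 - r) (z.2 + r)

theorem mem_ball {z x : Site} {r : ℕ} : x ∈ ball z r ↔ dist x z ≤ r := by
  have : ∀ a b : ℤ, dist a b ≤ r ↔ b - r ≤ a ∧ a ≤ b + r := fun a b => by
    rw [Int.dist_eq, abs_le]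
    norm_cast
    omega
  simp [ball, Prod.dist_eq, this]

theorem card_ball (z : Site) (r : ℕ) : (ball z r).card = (2 * r + 1) ^ 2 := by
  have : ∀ a : ℤ, (a + r + 1 - (a - r)).toNat = 2 * r + 1 := fun a => by omega
  simp [ball, this, sq]

/-- the edge touches the ball. -/
def Touch (z : Site) (ρ : ℝ) (e : Edge) : Prop := dist e.1 z ≤ ρ ∨ dist e.2 z ≤ ρ

/-- all edges near `c` are nearest-neighbour edges. -/
def Loc (𝓔 : Finset Edge) (c : Site) (ρ : ℝ) : Prop :=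
  ∀ e ∈ 𝓔, Touch c ρ e → e.2 = (e.1.1 + 1, e.1.2) ∨ e.2 = (e.1.1, e.1.2 + 1)

theorem Loc.dist_le {𝓔 : Finset Edge} {c : Site} {ρ : ℝ} (h : Loc 𝓔 c ρ) {e : Edge} (he : e ∈ 𝓔)
    (ht : Touch c ρ e) : dist e.1 e.2 ≤ 1 := by
  rcases h e he ht with h1 | h1 <;> simp [h1, Prod.dist_eq]

theorem Loc.both {𝓔 : Finset Edge} {c : Site} {ρ : ℝ} (h : Loc 𝓔 c ρ) {e : Edge} (he : e ∈ 𝓔)
    (ht : Touch c ρ e) : dist e.1 c ≤ ρ + 1 ∧ dist e.2 c ≤ ρ + 1 := by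
  have h1 := h.dist_le he ht
  rcases ht with h2 | h2
  · exact ⟨by linarith, by linarith [dist_triangle_left e.2 c e.1]⟩
  · exact ⟨by linarith [dist_triangle e.1 e.2 c], by linarith⟩

theorem Loc.mono {𝓔 𝓔' : Finset Edge} {c z : Site} {ρ ρ' : ℝ} (h : Loc 𝓔 c ρ) (hs : 𝓔' ⊆ 𝓔)
    (hz : dist z c + ρ' ≤ ρ) : Loc 𝓔' z ρ' := fun e he ht => h e (hs he) <|
  ht.imp (fun h1 => by linarith [dist_triangle e.1 z c])
    fun h1 => by linarith [dist_triangle e.2 z c]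

/-- a bound for the number of edges touching a ball. -/
def ne (ρ : ℕ) : ℝ := 2 * (2 * ρ + 3) ^ 2

theorem ne_nonneg (ρ : ℕ) : 0 ≤ ne ρ := by unfold ne; positivity

open Classical in
theorem Loc.card_le {𝓔 : Finset Edge} {z : Site} {ρ : ℕ} (h : Loc 𝓔 z ρ) :
    ((𝓔.filter (Touch z ρ)).card : ℝ) ≤ ne ρ := by
  have : 𝓔.filter (Touch z ρ) ⊆ (ball z (ρ + 1)).image (fun x => (x, (x.1 + 1, x.2))) ∪
      (ball z (ρ + 1)).image fun x => (x, (x.1, x.2 + 1)) := fun e he => by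
    obtain ⟨h1, h2⟩ := Finset.mem_filter.mp he
    have h3 : e.1 ∈ ball z (ρ + 1) := mem_ball.mpr (by exact_mod_cast (h.both h1 h2).1)
    exact Finset.mem_union.mpr ((h e h1 h2).imp
      (fun h4 => Finset.mem_image.mpr ⟨e.1, h3, by rw [← h4]⟩)
      fun h4 => Finset.mem_image.mpr ⟨e.1, h3, by rw [← h4]⟩)
  have h2 := (Finset.card_le_card this).trans ((Finset.card_union_le _ _).trans
    (add_le_add Finset.card_image_le Finset.card_image_le))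
  rw [card_ball] at h2
  have h3 : ((𝓔.filter (Touch z ρ)).card : ℝ) ≤ (2 * (ρ + 1) + 1) ^ 2 + (2 * (ρ + 1) + 1) ^ 2 := by
    exact_mod_cast h2
  exact h3.trans_eq (by unfold ne; ring)

theorem Loc.sum_le {𝓔 : Finset Edge} {z : Site} {ρ : ℕ} (h : Loc 𝓔 z ρ) {μ : Edge → ℝ} {m : ℝ}
    (h0 : ∀ e ∈ 𝓔, ¬Touch z ρ e → μ e = 0) (h1 : ∀ e ∈ 𝓔, Touch z ρ e → μ e ≤ m) (hm : 0 ≤ m) :
    ∑ e ∈ 𝓔, μ e ≤ ne ρ * m := by
  classical
  rw [← Finset.sum_filter_of_ne (p := Touch z ρ) fun e he hne =>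
    by_contra fun h2 => hne (h0 e he h2)]
  refine (Finset.sum_le_card_nsmul _ _ m fun e he => h1 e (Finset.mem_filter.mp he).1
    (Finset.mem_filter.mp he).2).trans ?_
  rw [nsmul_eq_mul]
  exact mul_le_mul_of_nonneg_right h.card_le hm

theorem Loc.bd_Ob {n : ℕ} {𝓔 : Finset Edge} {z : Site} {ρ : ℕ} (h : Loc 𝓔 z ρ) {M : Edge → Mat n}
    {m : ℝ} (h0 : ∀ e ∈ 𝓔, ¬Touch z ρ e → M e = 0) (h1 : ∀ e ∈ 𝓔, Touch z ρ e → EB (M e) m)
    (hm : 0 ≤ m) : Bd (Ob 𝓔 M) (n ^ 2 * (ne ρ * m)) := by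
  classical
  refine (P163.bd_Ob (μ := fun e => if Touch z ρ e then m else 0) fun e he => ?_).mono
    (mul_le_mul_of_nonneg_left (h.sum_le (fun e _ h2 => if_neg h2) (fun e _ h2 => (if_pos h2).le)
      hm) (by positivity))
  split_ifs with h2
  · exact h1 e he h2
  · rw [h0 e he h2]; exact fun i j => by simp

/-- the tent function. -/
noncomputable def tent (r : ℝ) (z x : Site) : ℝ := max 0 (min 1 (2 - dist x z / r))

theorem tent_nonneg (r : ℝ) (z x : Site) : 0 ≤ tent r z x := le_max_left _ _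

theorem tent_le_one (r : ℝ) (z x : Site) : tent r z x ≤ 1 := max_le zero_le_one (min_le_left _ _)

theorem tent_eq_one {r : ℝ} (hr : 0 < r) {z x : Site} (h : dist x z ≤ r) : tent r z x = 1 := by
  have := (div_le_one hr).mpr h
  rw [tent, min_eq_left (by linarith), max_eq_right zero_le_one]

theorem tent_eq_zero {r : ℝ} (hr : 0 < r) {z x : Site} (h : 2 * r ≤ dist x z) :
    tent r z x = 0 := by
  have := (le_div_iff₀ hr).mpr h
  exact max_eq_left ((min_le_right _ _).trans (by linarith))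

theorem tent_lip {r : ℝ} (hr : 0 < r) (z x y : Site) : |tent r z x - tent r z y| ≤ dist x y / r := by
  refine (abs_max_sub_max_le_max _ _ _ _).trans (max_le (by simp; positivity)
    ((abs_min_sub_min_le_max _ _ _ _).trans (max_le (by simp; positivity) ?_)))
  rw [sub_sub_sub_cancel_left, ← sub_div, abs_div, abs_of_pos hr, dist_comm x y]
  gcongr
  exact abs_dist_sub_le _ _ _

/-- cut-off functions with quantitative bounds. -/
structure Cut (z : Site) (ρ : ℕ) (α ℓ : ℝ) (u : Site → ℝ) : Prop where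
  zero : ∀ x, ρ < dist x z → u x = 0
  bd : ∀ x, |u x| ≤ α
  lip : ∀ x y, dist x y ≤ 1 → |u y - u x| ≤ ℓ

theorem cut_tent {r ℓ : ℝ} (hr : 0 < r) {ρ : ℕ} (h1 : 2 * r ≤ ρ) (h2 : 1 / r ≤ ℓ) (z : Site) :
    Cut z ρ 1 ℓ (tent r z) where
  zero x hx := tent_eq_zero hr (by linarith)
  bd x := by rw [abs_of_nonneg (tent_nonneg _ _ _)]; exact tent_le_one _ _ _
  lip x y h := (tent_lip hr z y x).trans (le_trans (by rw [dist_comm]; gcongr) h2)

namespace Cut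

variable {z : Site} {ρ : ℕ} {α ℓ : ℝ} {u : Site → ℝ} (h : Cut z ρ α ℓ u)
include h

theorem a_nonneg : 0 ≤ α := (abs_nonneg _).trans (h.bd z)

theorem l_nonneg : 0 ≤ ℓ := (abs_nonneg _).trans (h.lip z z (by simp))

theorem mono {α' ℓ' : ℝ} (h1 : α ≤ α') (h2 : ℓ ≤ ℓ') : Cut z ρ α' ℓ' u :=
  ⟨h.zero, fun x => (h.bd x).trans h1, fun x y hxy => (h.lip x y hxy).trans h2⟩

theorem ends {e : Edge} (he : ¬Touch z ρ e) : u e.1 = 0 ∧ u e.2 = 0 :=
  ⟨h.zero _ (not_le.mp fun h1 => he (Or.inl h1)), h.zero _ (not_le.mp fun h1 => he (Or.inr h1))⟩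

theorem dd_zero {e : Edge} (he : ¬Touch z ρ e) : dd u e = 0 := by
  rw [dd, (h.ends he).1, (h.ends he).2, sub_zero]

theorem grad {𝓔 : Finset Edge} (hL : Loc 𝓔 z ρ) : ∑ e ∈ 𝓔, dd u e ^ 2 ≤ ne ρ * ℓ ^ 2 :=
  hL.sum_le (fun e _ he => by rw [h.dd_zero he]; ring)
    (fun e he ht => sq_le_sq' (abs_le.mp (h.lip _ _ (hL.dist_le he ht))).1
      (abs_le.mp (h.lip _ _ (hL.dist_le he ht))).2) (sq_nonneg _)

theorem mul {U : Site → ℝ} {R : ℝ} (hR : 0 < R) (hU : ∀ x y, |U x - U y| ≤ dist x y / R) :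
    Cut z ρ (ρ / R * α) (1 / R * α + (ρ + 1) / R * ℓ) fun x => (U x - U z) * u x where
  zero x hx := by rw [h.zero x hx, mul_zero]
  bd x := by
    by_cases hx : ρ < dist x z
    · rw [h.zero x hx, mul_zero, abs_zero]
      have := h.a_nonneg
      positivity
    · rw [abs_mul]
      exact mul_le_mul ((hU x z).trans (by gcongr; exact not_lt.mp hx)) (h.bd x) (abs_nonneg _)
        (by positivity)
  lip x y hxy := by
    have h1 := h.a_nonneg
    have h2 := h.l_nonneg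
    rw [show (U y - U z) * u y - (U x - U z) * u x =
      (U y - U x) * u y + (U x - U z) * (u y - u x) by ring]
    refine (abs_add_le _ _).trans (add_le_add ?_ ?_) <;> rw [abs_mul]
    · exact mul_le_mul ((hU y x).trans (by rw [dist_comm]; gcongr)) (h.bd y) (abs_nonneg _)
        (by positivity)
    · by_cases hx : (ρ : ℝ) + 1 < dist x z
      · rw [h.zero x (by linarith), h.zero y (by linarith [dist_triangle x y z]), sub_zero,
          abs_zero, mul_zero]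
        positivity
      · exact mul_le_mul ((hU x z).trans (by gcongr; exact not_lt.mp hx)) (h.lip x y hxy)
          (abs_nonneg _) (by positivity)

end Cut

theorem exists_mw_aux (ρ₀ K : ℕ) : ∃ ρ₁ : ℕ, ρ₀ ≤ ρ₁ ∧ ∀ z : Site, ∃ χ : Site → ℝ,
    (∀ x, dist x z ≤ ρ₀ → χ x = K) ∧ (∀ x, ρ₁ < dist x z → χ x = 0) ∧
      ∀ 𝓔, Loc 𝓔 z ρ₁ → ∑ e ∈ 𝓔, dd χ e ^ 2 ≤ 98 * K := by
  induction K with
  | zero => exact ⟨ρ₀, le_rfl, fun z => ⟨0, by simp, by simp, by simp [dd]⟩⟩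
  | succ K ih =>
    obtain ⟨ρ, h0, ih⟩ := ih
    refine ⟨2 * (ρ + 1), by omega, fun z => ?_⟩
    obtain ⟨χ, h1, h2, h3⟩ := ih z
    have hr : (0 : ℝ) < ρ + 1 := by positivity
    have h0' : (ρ₀ : ℝ) ≤ ρ := by exact_mod_cast h0
    have hc := cut_tent hr (ρ := 2 * (ρ + 1)) (by push_cast; rfl) le_rfl z
    refine ⟨χ + tent (ρ + 1) z, fun x hx => ?_, fun x hx => ?_, fun 𝓔 hL => ?_⟩
    · rw [Pi.add_apply, h1 x hx, tent_eq_one hr (by linarith)]; simp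
    · rw [Pi.add_apply, hc.zero x hx, h2 x (by push_cast at hx; linarith), add_zero]
    have hL' : Loc 𝓔 z ρ := hL.mono subset_rfl (by push_cast; simp; linarith)
    have h4 : ∀ e ∈ 𝓔, dd (χ + tent (ρ + 1) z) e ^ 2 =
        dd χ e ^ 2 + dd (tent (ρ + 1) z) e ^ 2 := fun e he => by
      by_cases ht : Touch z ρ e
      · simp [dd, tent_eq_one hr (hL'.both he ht).1, tent_eq_one hr (hL'.both he ht).2]
      · simp [dd, h2 _ (not_le.mp fun h => ht (Or.inl h)), h2 _ (not_le.mp fun h => ht (Or.inr h))]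
    rw [Finset.sum_congr rfl h4, Finset.sum_add_distrib]
    have h5 : ne (2 * (ρ + 1)) * (1 / (ρ + 1)) ^ 2 ≤ 98 := by
      rw [ne, one_div, inv_pow, ← div_eq_mul_inv, div_le_iff₀ (by positivity)]
      push_cast
      nlinarith
    push_cast
    linarith [h3 𝓔 hL', hc.grad hL]

theorem exists_mw (ρ₀ : ℕ) {κ : ℝ} (hκ : 0 < κ) : ∃ ρ₁ : ℕ, ρ₀ ≤ ρ₁ ∧ ∀ z : Site, ∃ χ : Site → ℝ,
    (∀ x, dist x z ≤ ρ₀ → χ x = 1) ∧ (∀ x, ρ₁ < dist x z → χ x = 0) ∧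
      ∀ 𝓔, Loc 𝓔 z ρ₁ → ∑ e ∈ 𝓔, dd χ e ^ 2 ≤ κ := by
  obtain ⟨K, hK⟩ := exists_nat_gt (98 / κ)
  have hK0 : (0 : ℝ) < K := lt_trans (by positivity) hK
  obtain ⟨ρ₁, h0, h⟩ := exists_mw_aux ρ₀ K
  refine ⟨ρ₁, h0, fun z => ?_⟩
  obtain ⟨χ, h1, h2, h3⟩ := h z
  refine ⟨fun x => χ x / K, fun x hx => by simp [h1 x hx, hK0.ne'],
    fun x hx => by simp [h2 x hx], fun 𝓔 hL => ?_⟩
  simp only [dd, ← sub_div, div_pow, ← Finset.sum_div]
  rw [div_le_iff₀ (by positivity)]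
  rw [div_lt_iff₀ hκ] at hK
  refine (h3 𝓔 hL).trans ?_
  nlinarith

end Vale.Agent.P163
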