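import Vale.Agent.P163.FK

/-! Exponential decay of connection probabilities. -/

namespace Vale.Agent.P163

open Set Function Metric MeasureTheory

variable {n : ℕ} {β δ η : ℝ} {a : Fin n} {𝓔 : Finset Edge} {A : Finset Edge → Prop} {r : ℕ}
  {x y z : Site}

theorem Conn.mono {ω ω' : Finset Edge} (h : Conn ω z y) (hω : ω ⊆ ω') : Conn ω' z y := by
  induction h with
  | refl => exact .refl
  | tail _ h ih => exact ih.tail (h.imp (@hω _) (@hω _))

theorem Conn.last {ω F : Finset Edge} {B : Set Site} (h : Conn ω z y) (hy : y ∉ B)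
    (hF : ∀ e ∈ F, e.1 ∈ B ∨ e.2 ∈ B) : (z ∉ B ∧ Conn (ω \ F) z y) ∨
      ∃ v ∈ B, ∃ w ∉ B, ((v, w) ∈ ω ∨ (w, v) ∈ ω) ∧ Conn ω z v ∧ Conn (ω \ F) w y := by
  induction h using Relation.ReflTransGen.head_induction_on with
  | refl => exact Or.inl ⟨hy, .refl⟩
  | @head v w h _ ih =>
    rcases ih with ⟨h1, h2⟩ | ⟨v', h1, w', h2, h3, h4, h5⟩
    · by_cases hv : v ∈ B
      · exact Or.inr ⟨v, hv, w, h1, h, .refl, h2⟩
      · exact Or.inl ⟨hv, .head (h.imp
          (fun h => Finset.mem_sdiff.mpr ⟨h, fun h3 => (hF _ h3).elim hv h1⟩)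
          fun h => Finset.mem_sdiff.mpr ⟨h, fun h3 => (hF _ h3).elim h1 hv⟩) h2⟩
    · exact Or.inr ⟨v', h1, w', h2, h3, .head h h4, h5⟩

theorem Wf_conn_le (hβ : 0 ≤ β) (hη : 0 < η) (hL : Loc 𝓔 z (r + 1 : ℕ)) (hzy : z ≠ y)
    (hy : dist y z ≤ (r + 1 : ℕ)) (hA : ∀ e ∈ 𝓔, Touch z (r + 1 : ℕ) e → ∀ ω, A (insert e ω) ↔ A ω)
    (s : Config n) : Wf β a 𝓔 (fun ω => Conn ω z y ∧ A ω) s ≤
      (η ^ 2)⁻¹ * (|uu a (z, y)| * Wf β a 𝓔 fun ω => Conn ω z y ∧ A ω) s +
        ne (r + 1) * (2 * β * η * Wf β a 𝓔 A s) := by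
  have h0 : ∀ A, 0 ≤ Wf β a 𝓔 A s := fun A => Wf_nonneg hβ s
  have h1 := h0 A
  have h2 := h0 fun ω => Conn ω z y ∧ A ω
  have h3 := ne_nonneg (r + 1)
  rw [ContinuousMap.mul_apply, ContinuousMap.abs_apply, ← mul_assoc]
  by_cases h : ∀ w, w = z ∨ w = y → η ≤ |(s w).1 a|
  · refine le_add_of_le_of_nonneg (le_mul_of_one_le_left h2 ?_) (by positivity)
    rw [le_inv_mul_iff₀ (by positivity), mul_one, uu_apply, abs_mul, sq]
    exact mul_le_mul (h z (Or.inl rfl)) (h y (Or.inr rfl)) hη.le (abs_nonneg _)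
  push Not at h
  obtain ⟨w, hw, h⟩ := h
  have h4 : ∀ e ∈ 𝓔.filter fun e => e.1 = w ∨ e.2 = w, Touch z (r + 1 : ℕ) e := fun e he => by
    have : dist w z ≤ (r + 1 : ℕ) := by rcases hw with rfl | rfl; exacts [by simp; positivity, hy]
    rcases (Finset.mem_filter.mp he).2 with rfl | rfl
    exacts [Or.inl this, Or.inr this]
  refine le_add_of_nonneg_of_le (by positivity) ((Wf_le_sum hβ
    (I := 𝓔.filter fun e => e.1 = w ∨ e.2 = w) (B := fun e ω => e ∈ ω ∧ A ω)
    (fun ω hω hc => ?_) s).trans ((hL.mono (Finset.filter_subset _ _) (by simp)).sum_le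
    (fun e he h => absurd (h4 e he) h) (fun e he ht => ?_) (by positivity)))
  · obtain ⟨v, hv⟩ : ∃ v, (w, v) ∈ ω ∨ (v, w) ∈ ω := by
      rcases hw with rfl | rfl
      · exact (hc.1.cases_head.resolve_left hzy).imp fun _ h => h.1
      · exact (hc.1.cases_tail.resolve_left hzy.symm).imp fun _ h => h.2.symm
    exact hv.elim (fun h => ⟨_, Finset.mem_filter.mpr ⟨hω h, Or.inl rfl⟩, h, hc.2⟩)
      fun h => ⟨_, Finset.mem_filter.mpr ⟨hω h, Or.inr rfl⟩, h, hc.2⟩
  · obtain ⟨h5, h6⟩ := Finset.mem_filter.mp he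
    refine Wf_open hβ h5 (hA e h5 ht) ?_
    rw [uu_apply, abs_mul]
    rcases h6 with rfl | rfl
    · exact (mul_le_of_le_one_right (abs_nonneg _) (abs_spin_le _ _)).trans h.le
    · exact (mul_le_of_le_one_left (abs_nonneg _) (abs_spin_le _ _)).trans h.le

variable [NeZero n]

theorem II_uu_le (hβ : 0 ≤ β) (hD : Dec n β r δ) (hL : Loc 𝓔 z r) (hy : r < dist y z)
    (hA : ∀ e ∈ 𝓔, Touch z r e → ∀ ω, A (insert e ω) ↔ A ω) (ζ : Config n) :
    II univ (uu a (z, y) * Wf β a 𝓔 A) ζ ≤ δ * II univ (Wf β a 𝓔 A) ζ := by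
  classical
  have h1 : Ind (closedBall z r) (ev (xv y a) * Wf β a (𝓔.filter fun e => ¬Touch z r e) A) :=
    ((dep_xv (mem_singleton y) a).ind (disjoint_singleton_right.mpr
      fun h => not_le.mpr hy (mem_closedBall.mp h))).mul (ind_Wf fun e he => by
        simpa only [Touch, mem_closedBall, not_or] using (Finset.mem_filter.mp he).2)
  rw [← Finset.filter_union_filter_not_eq (Touch z r) 𝓔,
    Wf_union (Finset.disjoint_filter_filter_not _ _ _) fun e he =>
      hA e (Finset.mem_filter.mp he).1 (Finset.mem_filter.mp he).2, uu, map_mul ev,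
    show ∀ p q u v : C(Config n, ℝ), p * q * (u * v) = q * v * p * u from fun _ _ _ _ => by ring,
    tower (subset_univ _) h1]
  refine (le_abs_self _).trans (abs_II_le _ (fun s => ?_) _)
  have h2 := Wf_nonneg (a := a) (A := A) (𝓔 := 𝓔.filter fun e => ¬Touch z r e) hβ s
  have h3 := hD _ z s a (hL.mono (Finset.filter_subset (Touch z r) _) (by simp))
  have h4 : 0 < ex (ev (Ham (𝓔.filter (Touch z r)) β)) s := Real.exp_pos _
  simp only [ContinuousMap.mul_apply, abs_mul, ev_xv, abs_of_nonneg h2, abs_of_pos h4]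
  exact (mul_le_mul_of_nonneg_right (mul_le_mul (mul_le_of_le_one_left h2 (abs_spin_le _ _)) h3
    (abs_nonneg _) h2) h4.le).trans_eq (by ring)

theorem II_conn_le (hβ : 0 ≤ β) (hη : 0 < η) (hD : Dec n β r δ) (hL : Loc 𝓔 z (r + 1 : ℕ))
    (h1 : r < dist y z) (h2 : dist y z ≤ (r + 1 : ℕ))
    (hA : ∀ e ∈ 𝓔, Touch z (r + 1 : ℕ) e → ∀ ω, A (insert e ω) ↔ A ω) (ζ : Config n) :
    II univ (Wf β a 𝓔 fun ω => Conn ω z y ∧ A ω) ζ ≤
      (δ / η ^ 2 + ne (r + 1) * (2 * β * η)) * II univ (Wf β a 𝓔 A) ζ := by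
  have h3 := II_uu_le (a := a) hβ hD (hL.mono subset_rfl (by simp)) h1 (fun e he ht => hA e he
    (ht.imp (fun h => by push_cast; linarith) fun h => by push_cast; linarith)) ζ
  have h4 := II_mono univ (G := (η ^ 2)⁻¹ • (|uu a (z, y)| * Wf β a 𝓔 fun ω => Conn ω z y ∧ A ω) +
    ne (r + 1) • (2 * β * η) • Wf β a 𝓔 A) (Wf_conn_le hβ hη hL (fun h => by
      rw [h, dist_self] at h1; exact absurd h1 (by simp)) h2 hA) ζ
  simp only [map_add, map_smul, ContinuousMap.add_apply, ContinuousMap.smul_apply, smul_eq_mul,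
    ← fk] at h4
  have h5 := mul_le_mul_of_nonneg_left h3 (inv_nonneg.mpr (sq_nonneg η))
  rw [div_eq_inv_mul]
  linarith

theorem II_path_le (hβ : 0 ≤ β) (hη : 0 < η) (hD : Dec n β r δ) {θ : ℝ}
    (hθ : (2 * r + 5) ^ 4 * (δ / η ^ 2 + ne (r + 1) * (2 * β * η)) ≤ θ)
    (hL : Loc 𝓔 x (dist y x)) (ζ : Config n) (K : ℕ) (F : Finset Edge) (z : Site)
    (hz : dist z x + K * (r + 2) ≤ dist y x) :
    II univ (Wf β a 𝓔 fun ω => Conn (ω \ F) z y) ζ ≤ θ ^ K * II univ (ex (ev (Ham 𝓔 β))) ζ := by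
  classical
  induction K generalizing F z with
  | zero =>
    rw [pow_zero, one_mul, ← Wf_true (a := a)]
    exact II_mono _ (fun s => by
      simpa using Wf_le_sum hβ (I := {()}) (B := fun _ _ => True) (by simp) s) _
  | succ K ih =>
    have h0 : (0 : ℝ) ≤ K * (r + 2) := by positivity
    have hδ : 0 ≤ δ := (abs_nonneg _).trans (hD ∅ z ζ a fun _ h => by simp at h)
    have hne := ne_nonneg (r + 1)
    have hθ0 : 0 ≤ θ := le_trans (by positivity) hθ
    have hZ := II_ex_pos univ (ev (Ham 𝓔 β)) ζ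
    push_cast at hz
    have hL' : Loc 𝓔 z (r + 1 : ℕ) := hL.mono subset_rfl (by push_cast; linarith)
    set F' := 𝓔.filter (Touch z (r + 1 : ℕ)) with hF'
    set I := ((ball z (r + 2) ×ˢ ball z (r + 2)).filter fun p =>
      r < dist p.1 z ∧ dist p.1 z ≤ (r + 1 : ℕ)) with hI
    have h1 := II_mono univ (G := ∑ p ∈ I, Wf β a 𝓔 fun ω => Conn ω z p.1 ∧
      Conn (ω \ (F ∪ F')) p.2 y) (fun s => (Wf_le_sum hβ (A := fun ω => Conn (ω \ F) z y)
      (fun ω hω hc => by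
        obtain ⟨h1, -⟩ | ⟨v, h1, w, h2, h3, h4, h5⟩ := hc.last (B := closedBall z (r + 1 : ℕ))
          (F := F') (fun h => by
            have := mem_closedBall.mp h
            push_cast at this
            linarith [dist_triangle y z x]) fun e he => (Finset.mem_filter.mp he).2
        · exact absurd (mem_closedBall_self (by positivity)) h1
        have h6 : dist v w ≤ 1 := h3.elim
          (fun h => hL'.dist_le (hω (Finset.mem_sdiff.mp h).1) (Or.inl h1))
          fun h => dist_comm v w ▸ hL'.dist_le (hω (Finset.mem_sdiff.mp h).1) (Or.inr h1)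
        rw [mem_closedBall] at h1 h2
        refine ⟨(v, w), Finset.mem_filter.mpr ⟨Finset.mem_product.mpr ⟨mem_ball.mpr ?_,
          mem_ball.mpr ?_⟩, ?_, h1⟩, h4.mono Finset.sdiff_subset,
          h5.mono (sdiff_sdiff_left (a := ω)).subset⟩ <;> push_cast at h1 h2 ⊢ <;> linarith [dist_triangle_left w z v]) s).trans_eq
        (ContinuousMap.sum_apply ..).symm) ζ
    rw [map_sum, ContinuousMap.sum_apply] at h1
    refine h1.trans ((Finset.sum_le_card_nsmul _ _ ((δ / η ^ 2 + ne (r + 1) * (2 * β * η)) *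
      (θ ^ K * II univ (ex (ev (Ham 𝓔 β))) ζ)) fun p hp => ?_).trans ?_)
    · obtain ⟨h2, h3, h4⟩ := Finset.mem_filter.mp hp
      have h5 := mem_ball.mp (Finset.mem_product.mp h2).2
      refine (II_conn_le hβ hη hD hL' h3 h4 (fun e he ht ω => ?_) ζ).trans
        (mul_le_mul_of_nonneg_left (ih _ _ ?_) (by positivity))
      · rw [Finset.insert_sdiff_of_mem _ (Finset.mem_union_right _ (Finset.mem_filter.mpr ⟨he, ht⟩))]
      · push_cast at h5
        linarith [dist_triangle p.2 z x]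
    · have h2 : (I.card : ℝ) ≤ (2 * r + 5) ^ 4 := by
        have := Finset.card_filter_le (ball z (r + 2) ×ˢ ball z (r + 2)) fun p =>
          r < dist p.1 z ∧ dist p.1 z ≤ (r + 1 : ℕ)
        rw [Finset.card_product, card_ball] at this
        exact_mod_cast this.trans_eq (by ring)
      rw [nsmul_eq_mul, pow_succ' θ, mul_assoc θ, ← mul_assoc (I.card : ℝ)]
      exact mul_le_mul_of_nonneg_right (le_trans (by gcongr) hθ) (by positivity)

theorem finite_decay (hn : 3 ≤ n) (hβ : 0 ≤ β) : ∃ ρ : ℝ, 0 < ρ ∧ ∀ (𝓔 : Finset Edge) (x y : Site),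
    Loc 𝓔 x (dist y x) → ∫ s, inner ℝ (s x).1 (s y).1
      ∂(PP n).tilted (fun s => β * ∑ e ∈ 𝓔, inner ℝ (s e.1).1 (s e.2).1) ≤
      n * Real.exp (1 - dist y x / ρ) := by
  obtain ⟨r, δ, η, hη, hD, hθ⟩ := exists_dec hn hβ (Real.exp_pos (-1))
  refine ⟨r + 2, by positivity, fun 𝓔 x y hL => ?_⟩
  obtain ⟨ζ⟩ := nonempty_of_isProbabilityMeasure (PP n)
  have h1 : ∀ v w : Spin n, inner ℝ v.1 w.1 = ∑ i, v.1 i * w.1 i := fun v w => by
    simp [PiLp.inner_apply, mul_comm]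
  have h2 : ∀ s : Config n, Real.exp (β * ∑ e ∈ 𝓔, inner ℝ (s e.1).1 (s e.2).1) =
      ex (ev (Ham 𝓔 β)) s := fun s => by
      simp only [Ham, Ob, map_sum, ex, ContinuousMap.coe_mk, ContinuousMap.sum_apply, ev_qq_one, h1,
        Finset.mul_sum (s := 𝓔)]
  have hZ := II_ex_pos univ (ev (Ham 𝓔 β)) ζ
  have h3 : ∀ a, II univ (uu a (x, y) * ex (ev (Ham 𝓔 β))) ζ ≤
      Real.exp (1 - dist y x / (r + 2)) * II univ (ex (ev (Ham 𝓔 β))) ζ := fun a => by
    have h4 := II_path_le (a := a) hβ hη hD hθ hL ζ ⌊dist y x / (r + 2)⌋₊ ∅ x (by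
      rw [dist_self, zero_add, ← le_div_iff₀ (by positivity)]
      exact Nat.floor_le (by positivity))
    rw [← Real.exp_nat_mul] at h4
    refine le_trans ?_ (h4.trans (mul_le_mul_of_nonneg_right (Real.exp_le_exp.mpr
      (by linarith [Nat.lt_floor_add_one (dist y x / (r + 2))])) hZ.le))
    rw [← Wf_true (a := a), fk]
    refine II_mono _ (fun s => ?_) _
    simp only [and_true, Finset.sdiff_empty, ContinuousMap.mul_apply, ContinuousMap.abs_apply,
      uu_apply, abs_mul]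
    exact mul_le_of_le_one_left (Wf_nonneg hβ s)
      (mul_le_one₀ (abs_spin_le _ _) (abs_nonneg _) (abs_spin_le _ _))
  have h4 := Finset.sum_le_card_nsmul _ _ _ fun a (_ : a ∈ Finset.univ) => h3 a
  rw [← ContinuousMap.sum_apply, ← map_sum, II_univ, Finset.card_univ, Fintype.card_fin,
    nsmul_eq_mul, ← mul_assoc, ← div_le_iff₀ hZ, II_univ, ← integral_div] at h4
  rw [integral_tilted]
  refine le_of_eq_of_le (integral_congr_ae (Filter.Eventually.of_forall fun s => ?_)) h4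
  simp only [h2, smul_eq_mul, ContinuousMap.sum_apply, ContinuousMap.mul_apply, uu_apply,
    ← Finset.sum_mul]
  rw [h1]
  ring

end Vale.Agent.P163
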