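import Vale.Agent.P163.Geo

/-! Bounds for the score attached to a pair of cut-off functions. -/

namespace Vale.Agent.P163

open Set Function Metric
open scoped Matrix

variable {n : ℕ}

/-- three generators with the commutation relations of the rotation group in three dimensions. -/
structure Tri (A B G : Mat n) : Prop where
  genA : Gen A
  genB : Gen B
  genG : Gen G
  comm : A * B - B * A = G
  aba : A * (B * A) = 0
  aabb : B * (B * (A * A)) = A * (A * (B * B))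

/-- the standard generators. -/
def Lg (i j : Fin n) : Mat n := Matrix.single i j 1 - Matrix.single j i 1

theorem gen_Lg {i j : Fin n} (h : i ≠ j) : Gen (Lg i j) where
  skew := by simp [Lg, Matrix.transpose_sub]
  cube := by simp [Lg, mul_sub, sub_mul, Matrix.single_mul_single_of_ne, h, h.symm,
    neg_add_eq_sub]
  bd k l := by
    simp only [Lg, Matrix.sub_apply, Matrix.single_apply]
    split_ifs <;> simp

theorem tri_Lg {a b c : Fin n} (hab : a ≠ b) (hac : a ≠ c) (hbc : b ≠ c) :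
    Tri (Lg a c) (Lg c b) (Lg a b) where
  genA := gen_Lg hac
  genB := gen_Lg hbc.symm
  genG := gen_Lg hab
  comm := by simp [Lg, mul_sub, sub_mul, Matrix.single_mul_single_of_ne, hab, hac, hbc, hab.symm,
    hac.symm, hbc.symm]
  aba := by simp [Lg, mul_sub, sub_mul, Matrix.single_mul_single_of_ne, hab, hbc, hab.symm,
    hac.symm, hbc.symm]
  aabb := by simp [Lg, mul_sub, sub_mul, Matrix.single_mul_single_of_ne, hab, hac, hbc, hab.symm,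
    hac.symm, hbc.symm]

variable {𝓔 : Finset Edge} {β : ℝ} {z : Site} {ρ : ℕ} {A B G X : Mat n} {u v a : Site → ℝ}
  {α ℓ α' ℓ' γ : ℝ}

theorem Cut.eb (hu : Cut z ρ α ℓ u) (hβ : 0 ≤ β) (hA : Gen A) (hL : Loc 𝓔 z ρ) {e : Edge}
    (he : e ∈ 𝓔) (ht : Touch z ρ e) : EB ((β * dd u e) • A) (β * ℓ) :=
  (EB.smul hA.bd _).mono (by
    rw [mul_one, abs_mul, abs_of_nonneg hβ]
    exact mul_le_mul_of_nonneg_left (hu.lip _ _ (hL.dist_le he ht)) hβ)

theorem Cut.dep (hu : Cut z ρ α ℓ u) (hA : Gen A) (hL : Loc 𝓔 z ρ) :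
    Dep (closedBall z (ρ + 1)) (DD A u (Ham 𝓔 β)) := by
  rw [DD_Ham hA]
  refine dep_Ob fun e he => ?_
  by_cases ht : Touch z ρ e
  · exact Or.inr (hL.both he ht)
  · exact Or.inl (by simp [hu.dd_zero ht])

theorem dep_Sig (hu : Cut z ρ α ℓ u) (hv : Cut z ρ α' ℓ' v) (hA : Gen A) (hB : Gen B)
    (hL : Loc 𝓔 z ρ) : Dep (closedBall z (ρ + 1)) (Sig A B (Ham 𝓔 β) u v) :=
  Subalgebra.add_mem _ ((hv.dep hB hL).DD A u) (Subalgebra.mul_mem _ (hu.dep hA hL) (hv.dep hB hL))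

theorem bd_DD_Sig (hβ : 0 ≤ β) (hu : Cut z ρ α ℓ u) (hv : Cut z ρ α' ℓ' v) (hA : Gen A)
    (hB : Gen B) (hX : Gen X) (hL : Loc 𝓔 z ρ) (ha : ∀ x, dist x z ≤ ρ + 1 → |a x| ≤ γ) :
    Bd (DD X a (Sig A B (Ham 𝓔 β) u v))
      (γ * (4 * n ^ 4 * ne ρ * β * (α * ℓ') + 4 * n ^ 5 * ne ρ ^ 2 * β ^ 2 * (ℓ * ℓ'))) := by
  have hγ : 0 ≤ γ := (abs_nonneg _).trans (ha z (by simp; positivity))
  have h0 : ∀ {A : Mat n} {α ℓ : ℝ} {u : Site → ℝ}, Cut z ρ α ℓ u → Gen A →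
      Bd (DD A u (Ham 𝓔 β)) (n ^ 2 * (ne ρ * (β * ℓ))) ∧
      Bd (DD X a (DD A u (Ham 𝓔 β))) (n ^ 2 * (ne ρ * (2 * n * γ * (β * ℓ)))) := by
    intro A α ℓ u hu hA
    have := hu.l_nonneg
    rw [DD_Ham hA, DD_Ob hX]
    exact ⟨hL.bd_Ob (fun e _ ht => by simp [hu.dd_zero ht])
      (fun e he ht => hu.eb hβ hA hL he ht) (by positivity),
      hL.bd_Ob (fun e _ ht => by simp [am, hu.dd_zero ht]) (fun e he ht =>
        EB.am hX (hu.eb hβ hA hL he ht) (ha _ (hL.both he ht).1) (ha _ (hL.both he ht).2))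
        (by positivity)⟩
  have h1 : Bd (DD X a (DD A u (DD B v (Ham 𝓔 β))))
      (n ^ 2 * (ne ρ * (2 * n * γ * (2 * n * α * (β * ℓ'))))) := by
    have := hv.l_nonneg
    have := hu.a_nonneg
    rw [DD_Ham hB, DD_Ob hA, DD_Ob hX]
    exact hL.bd_Ob (fun e _ ht => by simp [am, hv.dd_zero ht]) (fun e he ht =>
      EB.am hX (EB.am hA (hv.eb hβ hB hL he ht) (hu.bd _) (hu.bd _)) (ha _ (hL.both he ht).1)
        (ha _ (hL.both he ht).2)) (by positivity)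
  rw [Sig, map_add, Derivation.leibniz, smul_eq_mul, smul_eq_mul]
  exact (h1.add (((h0 hu hA).1.mul (h0 hv hB).2).add ((h0 hv hB).1.mul (h0 hu hA).2))).mono
    (le_of_eq (by ring))

theorem bd_tau (hβ : 0 ≤ β) (hu : Cut z ρ α ℓ u) (hv : Cut z ρ α' ℓ' v) (hT : Tri A B G)
    (hL : Loc 𝓔 z ρ) : Bd (DD B v (DD A u (DD A u (DD B v (Ham 𝓔 β)))))
      (n ^ 2 * (ne ρ * (β * ℓ' * (2 * ((α ^ 2 * ℓ' + 2 * α * α' * ℓ) * n ^ 3))))) := by
  have h1 := hu.a_nonneg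
  have h2 := hu.l_nonneg
  have h3 := hv.a_nonneg
  have h4 := hv.l_nonneg
  rw [DD_Ham hT.genB, DD_Ob hT.genA, DD_Ob hT.genA, DD_Ob hT.genB]
  refine hL.bd_Ob (fun e _ ht => by simp [am, hv.dd_zero ht]) (fun e he ht => ?_) (by positivity)
  have e1 : am B v (am A u (am A u fun e => (β * dd v e) • B)) e = (β * dd v e) •
      ((v e.2 * u e.2 ^ 2 - v e.1 * u e.1 ^ 2) • (B * (A * (A * B))) +
        (v e.2 * u e.1 ^ 2 - v e.1 * u e.2 ^ 2) • (A * (A * (B * B)))) := by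
    simp only [am, smul_mul_assoc, mul_smul_comm, sub_mul, mul_sub, mul_assoc, hT.aba, hT.aabb,
      mul_zero, zero_mul]
    module
  have d1 := hu.lip _ _ (hL.dist_le he ht)
  have d2 := hv.lip _ _ (hL.dist_le he ht)
  have d3 : |u e.2 ^ 2 - u e.1 ^ 2| ≤ 2 * α * ℓ := by
    rw [sq_sub_sq, abs_mul]
    exact mul_le_mul ((abs_add_le _ _).trans (by linarith [hu.bd e.1, hu.bd e.2])) d1
      (abs_nonneg _) (by positivity)
  have d4 : ∀ x, |u x ^ 2| ≤ α ^ 2 := fun x => by rw [abs_pow]; gcongr; exact hu.bd x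
  have d5 : ∀ p q : ℝ, |p| ≤ α ^ 2 → |p - q| ≤ 2 * α * ℓ →
      |v e.2 * p - v e.1 * q| ≤ α ^ 2 * ℓ' + 2 * α * α' * ℓ := fun p q hp hq => by
    rw [show v e.2 * p - v e.1 * q = p * (v e.2 - v e.1) + v e.1 * (p - q) by ring]
    refine (abs_add_le _ _).trans ?_
    rw [abs_mul, abs_mul]
    calc _ ≤ α ^ 2 * ℓ' + α' * (2 * α * ℓ) := by gcongr; exact hv.bd _
      _ = _ := by ring
  have b1 := (EB.mul hT.genB.bd (EB.mul hT.genA.bd (EB.mul hT.genA.bd hT.genB.bd))).smul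
    (v e.2 * u e.2 ^ 2 - v e.1 * u e.1 ^ 2)
  have b2 := (EB.mul hT.genA.bd (EB.mul hT.genA.bd (EB.mul hT.genB.bd hT.genB.bd))).smul
    (v e.2 * u e.1 ^ 2 - v e.1 * u e.2 ^ 2)
  rw [e1]
  refine ((b1.add b2).smul _).mono ?_
  rw [abs_mul, abs_of_nonneg hβ]
  calc _ ≤ β * ℓ' * ((α ^ 2 * ℓ' + 2 * α * α' * ℓ) * (n * (1 * (n * (1 * (n * (1 * 1)))))) +
        (α ^ 2 * ℓ' + 2 * α * α' * ℓ) * (n * (1 * (n * (1 * (n * (1 * 1))))))) := by
        gcongr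
        exacts [d2, d5 _ _ (d4 _) d3, d5 _ _ (d4 _) (abs_sub_comm (u e.2 ^ 2) _ ▸ d3)]
    _ = _ := by ring

theorem State.sig_sq_cut {D : Set Site} {E : Pol n →ₗ[ℝ] ℝ} (hE : State (Ham 𝓔 β) D E)
    (hβ : 0 ≤ β) (hu : Cut z ρ α ℓ u) (hv : Cut z ρ α' ℓ' v) (hT : Tri A B G) (hL : Loc 𝓔 z ρ)
    (hD : closedBall z ρ ⊆ D) :
    E (Sig A B (Ham 𝓔 β) u v * Sig A B (Ham 𝓔 β) u v) ≤
      4 * n ^ 5 * β * ne ρ * (ℓ' * (α ^ 2 * ℓ' + 2 * α * α' * ℓ)) +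
        3 * n ^ 6 * β ^ 2 * ne ρ ^ 2 * (ℓ * ℓ') ^ 2 :=
  (hE.sig_sq hT.genA (fun x hx => hu.zero x (not_le.mp fun h => hx (hD h))) hT.genB
    (fun x hx => hv.zero x (not_le.mp fun h => hx (hD h)))
    ((bd_DD_DD_Ham hT.genA u 𝓔 hβ).mono (mul_le_mul_of_nonneg_left (hu.grad hL) (by positivity)))
    ((bd_DD_DD_Ham hT.genB v 𝓔 hβ).mono (mul_le_mul_of_nonneg_left (hv.grad hL) (by positivity)))
    (bd_tau hβ hu hv hT hL)).trans_eq (by ring)

theorem State.DD_Sig {D : Set Site} {E : Pol n →ₗ[ℝ] ℝ} (hE : State (Ham 𝓔 β) D E)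
    (hu : Cut z ρ α ℓ u) (hv : Cut z ρ α' ℓ' v) (hA : Gen A) (hB : Gen B) (hG : Gen G)
    (hL : Loc 𝓔 z ρ) (hD : closedBall z (ρ + 1) ⊆ D) (U : Site → ℝ) :
    E (DD G (fun x => U x - U z) (Sig A B (Ham 𝓔 β) u v)) =
      -E (Sig A B (Ham 𝓔 β) u v * DD G U (Ham 𝓔 β)) := by
  have hD' : ∀ x ∉ D, (ρ : ℝ) < dist x z := fun x hx =>
    not_le.mp fun h => hx (hD (h.trans (by linarith) : dist x z ≤ ρ + 1))
  have h1 := hE.sig_ward hA (fun x hx => hu.zero x (hD' x hx)) hB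
    fun x hx => hv.zero x (hD' x hx)
  rw [(dep_Sig hu hv hA hB hL).DD_congr G
    (b := (closedBall z (ρ + 1)).indicator fun x => U x - U z)
    (fun x hx => (indicator_of_mem hx _).symm),
    hE.ward G hG _ fun x hx => indicator_of_notMem (fun h => hx (hD h)) _, h1, h1,
    DD_Ham hG, DD_Ham hG, DD_Ob hA, DD_Ob hA]
  congr 3
  refine Ob_congr fun e he => ?_
  by_cases ht : Touch z ρ e
  · simp only [am, dd, indicator_of_mem (mem_closedBall.mpr (hL.both he ht).1),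
      indicator_of_mem (mem_closedBall.mpr (hL.both he ht).2), sub_sub_sub_cancel_right]
  · simp [am, hu.ends ht]

end Vale.Agent.P163
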