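import Vale.Agent.P163.Score

/-! Scores at one scale. -/

namespace Vale.Agent.P163

open Set Function Metric
open scoped Matrix

variable {n : ℕ}

/-- the annulus. -/
def ann (c : Site) (R : ℝ) : Set Site := {x | R / 2 < dist x c ∧ dist x c ≤ 3 * R}

/-- the total mass of a tent. -/
noncomputable def NN (l : ℕ) : ℝ := ∑ w ∈ ball 0 (2 * l), tent l 0 w

/-- a cut-off times a recentred profile. -/
def aa (U : Site → ℝ) (z : Site) (w : Site → ℝ) : Site → ℝ := fun x => (U x - U z) * w x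

/-- the local score. -/
noncomputable def piece (A B : Mat n) (H : Pol n) (U : Site → ℝ) (l : ℕ) (z : Site) : Pol n :=
  (NN l)⁻¹ • (Sig A B H (tent l z) (aa U z (tent (3 * l) z)) -
    Sig A B H (aa U z (tent l z)) (tent (3 * l) z))

/-- the centres used at scale `l`. -/
noncomputable def Zs (c : Site) (R l : ℕ) : Finset Site :=
  (ball c (3 * R)).filter fun z => R ≤ dist z c + 6 * l ∧ dist z c ≤ 2 * R + 6 * l

/-- the score at scale `l`. -/
noncomputable def Sc (A B : Mat n) (H : Pol n) (c : Site) (R l : ℕ) : Pol n :=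
  ∑ z ∈ Zs c R l, piece A B H (tent R c) l z

theorem le_NN {l : ℕ} (hl : 1 ≤ l) : (l : ℝ) ^ 2 ≤ NN l := by
  have h0 : (0 : ℝ) < l := by exact_mod_cast hl
  have h1 : ∑ w ∈ ball 0 l, tent l 0 w ≤ NN l := Finset.sum_le_sum_of_subset_of_nonneg
    (fun x hx => mem_ball.mpr ((mem_ball.mp hx).trans (by push_cast; linarith)))
    fun _ _ _ => tent_nonneg _ _ _
  rw [Finset.sum_congr rfl fun w hw => tent_eq_one h0 (mem_ball.mp hw), Finset.sum_const,
    card_ball, nsmul_eq_mul, mul_one] at h1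
  refine le_trans ?_ h1
  push_cast
  nlinarith

theorem sum_tent {l : ℕ} (hl : 1 ≤ l) {Z : Finset Site} {x : Site}
    (h : ∀ z, dist z x ≤ 2 * l → z ∈ Z) : ∑ z ∈ Z, tent l z x = NN l := by
  have h0 : (0 : ℝ) < l := by exact_mod_cast hl
  rw [← Finset.sum_subset (s₁ := ball x (2 * l)) (fun z hz => h z (by simpa using mem_ball.mp hz))
    fun z _ hz => tent_eq_zero h0 (by
      rw [dist_comm]; simpa using (not_le.mp (mt mem_ball.mpr hz)).le)]
  refine Finset.sum_nbij' (fun z => x - z) (fun w => x - w) (fun z hz => ?_) (fun w hw => ?_)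
    (fun z _ => by simp) (fun w _ => by simp) fun z _ => ?_
  · rw [mem_ball] at hz ⊢
    rwa [dist_zero_right, ← dist_eq_norm, dist_comm]
  · rw [mem_ball] at hw ⊢
    rwa [dist_self_sub_left, ← dist_zero_right]
  · simp only [tent, sub_zero, dist_eq_norm]

theorem Cut.mono_rad {z : Site} {ρ ρ' : ℕ} {α ℓ : ℝ} {u : Site → ℝ} (h : Cut z ρ α ℓ u)
    (h1 : ρ ≤ ρ') : Cut z ρ' α ℓ u :=
  ⟨fun x hx => h.zero x (lt_of_le_of_lt (by exact_mod_cast h1) hx), h.bd, h.lip⟩

theorem cut_one {l : ℕ} (hl : 1 ≤ l) (z : Site) : Cut z (6 * l) 1 (1 / l) (tent l z) :=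
  cut_tent (by exact_mod_cast hl) (by push_cast; linarith [(Nat.cast_nonneg l : (0 : ℝ) ≤ l)])
    le_rfl z

theorem cut_three {l : ℕ} (hl : 1 ≤ l) (z : Site) : Cut z (6 * l) 1 (1 / l) (tent (3 * l) z) := by
  have h0 : (0 : ℝ) < l := by exact_mod_cast hl
  exact cut_tent (by positivity) (by push_cast; linarith)
    (one_div_le_one_div_of_le h0 (by linarith)) z

theorem Cut.aa {l : ℕ} (hl : 1 ≤ l) {z : Site} {w : Site → ℝ} (h : Cut z (6 * l) 1 (1 / l) w)
    {R : ℝ} (hR : 0 < R) (c : Site) : Cut z (6 * l) (6 * l / R) (8 / R) (aa (tent R c) z w) := by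
  have h0 : (1 : ℝ) ≤ l := by exact_mod_cast hl
  refine (h.mul hR (tent_lip hR c)).mono (by simp) ?_
  push_cast
  rw [mul_one, div_mul_div_comm, div_add_div _ _ hR.ne' (by positivity),
    div_le_div_iff₀ (by positivity) hR]
  nlinarith [mul_pos hR hR]

theorem sum_local {A B : Mat n} (U : Site → ℝ) {l : ℕ} (hl : 1 ≤ l) {z : Site} {ρ : ℝ}
    (hρ : 2 * ρ ≤ l) {Z : Finset Site} (hZ : ∀ y, dist y z ≤ ρ + 2 * l → y ∈ Z) {F : Pol n}
    (hF : Dep (closedBall z ρ) F) :
    ∑ y ∈ Z, (DD B (aa U y (tent (3 * l) y)) (DD A (tent l y) F) -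
      DD B (tent (3 * l) y) (DD A (aa U y (tent l y)) F)) =
      NN l • (DD B (fun x => U x - U z) (DD A 1 F) - DD B 1 (DD A (fun x => U x - U z) F)) := by
  have h0 : (0 : ℝ) < l := by exact_mod_cast hl
  have h1 : ∀ y, DD B (aa U y (tent (3 * l) y)) (DD A (tent l y) F) -
      DD B (tent (3 * l) y) (DD A (aa U y (tent l y)) F) =
      DD B (fun x => U x - U z) (DD A (tent l y) F) - DD B 1 (DD A (aa U z (tent l y)) F) := by
    intro y
    by_cases h : ∀ x ∈ closedBall z ρ, tent l y x = 0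
    · rw [hF.DD_zero A h, hF.DD_zero A (a := aa U y _) fun x hx => by simp [aa, h x hx],
        hF.DD_zero A (a := aa U z _) fun x hx => by simp [aa, h x hx]]
      simp
    push Not at h
    obtain ⟨x, hx, hx'⟩ := h
    have h2 : dist x y < 2 * l := not_le.mp fun h => hx' (tent_eq_zero h0 h)
    have h3 : ∀ w ∈ closedBall z ρ, tent (3 * l) y w = 1 := fun w hw =>
      tent_eq_one (by positivity) (by
        linarith [dist_triangle w x y, dist_triangle_right w x z, mem_closedBall.mp hw,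
          mem_closedBall.mp hx])
    rw [(hF.DD A _).DD_congr B (b := (fun x => U x - U z) + (U z - U y) • 1)
      (fun w hw => by simp [aa, h3 w hw]), (hF.DD A _).DD_congr B (b := 1) h3,
      show aa U y (tent l y) = aa U z (tent l y) + (U z - U y) • tent l y by
        funext w; simp [aa]; ring]
    simp only [map_add, map_smul, Derivation.add_apply, Derivation.smul_apply,
      Derivation.map_smul]
    abel
  have h2 : ∀ x ∈ closedBall z ρ, ∑ y ∈ Z, tent l y x = NN l := fun x hx =>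
    sum_tent hl fun y hy => hZ y (by linarith [dist_triangle y x z, mem_closedBall.mp hx])
  have h3 : ∀ f : Site → Site → ℝ, ∑ y ∈ Z, DD A (f y) F = DD A (∑ y ∈ Z, f y) F := fun f => by
    clear hZ h2
    induction Z using Finset.cons_induction with
    | empty => simp
    | cons y Z _ ih => rw [Finset.sum_cons, Finset.sum_cons, map_add, Derivation.add_apply, ih]
  rw [Finset.sum_congr rfl fun y _ => h1 y, Finset.sum_sub_distrib, ← map_sum, ← map_sum, h3, h3,
    hF.DD_congr A (b := NN l • 1) fun x hx => by simp [h2 x hx],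
    hF.DD_congr A (a := ∑ y ∈ Z, aa U z (tent l y)) (b := NN l • fun x => U x - U z)
      fun x hx => by simp [aa, ← Finset.mul_sum, h2 x hx, mul_comm]]
  simp only [map_smul, Derivation.smul_apply, Derivation.map_smul, smul_sub]

/-- the standing assumptions. -/
structure Ctx (𝓔 : Finset Edge) (β : ℝ) (c : Site) (R L : ℕ) (κ : ℝ) (E : Pol n →ₗ[ℝ] ℝ) :
    Prop where
  beta : 0 ≤ β
  state : State (Ham 𝓔 β) (ann c R) E
  loc : Loc 𝓔 c (3 * R)
  big : (26 : ℝ) * L < R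
  kap : 0 ≤ κ
  mw : ∀ z, R ≤ dist z c + 6 * L → dist z c ≤ 2 * R + 6 * L → ∀ A, Gen A → ∀ W k,
    Dep (closedBall z (7 * L)) W → Bd W k → |E (DD A 1 W)| ≤ k * κ

namespace Ctx

variable {𝓔 : Finset Edge} {β κ : ℝ} {c : Site} {R L : ℕ} {E : Pol n →ₗ[ℝ] ℝ}
  (h : Ctx 𝓔 β c R L κ E) {A B G : Mat n} (hT : Tri A B G) {l : ℕ} (hl : 1 ≤ l) (hL : l ≤ L)
include h

theorem pos : (0 : ℝ) < R := lt_of_le_of_lt (by positivity) h.big

include hl hL

theorem sub {z : Site} (hz : z ∈ Zs c R l) :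
    closedBall z (7 * L) ⊆ ann c R ∧ Loc 𝓔 z (6 * L : ℕ) ∧ Loc 𝓔 z (6 * l : ℕ) ∧
      closedBall z ((6 * l : ℕ) + 1) ⊆ closedBall z (7 * L) := by
  have h1 : (l : ℝ) ≤ L := by exact_mod_cast hL
  have h2 : (1 : ℝ) ≤ l := by exact_mod_cast hl
  have h3 := (Finset.mem_filter.mp hz).2
  have h4 := h.big
  refine ⟨fun x hx => ⟨?_, ?_⟩, h.loc.mono subset_rfl ?_, h.loc.mono subset_rfl ?_,
    closedBall_subset_closedBall ?_⟩
  · linarith [dist_triangle_left z c x, mem_closedBall.mp hx]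
  · linarith [dist_triangle x z c, mem_closedBall.mp hx]
  all_goals push_cast; linarith

include hT

theorem piece_ward {z : Site} (hz : z ∈ Zs c R l) (F : Pol n) :
    E (piece A B (Ham 𝓔 β) (tent R c) l z * F) = (NN l)⁻¹ *
      E (DD B (aa (tent R c) z (tent (3 * l) z)) (DD A (tent l z) F) -
        DD B (tent (3 * l) z) (DD A (aa (tent R c) z (tent l z)) F)) := by
  obtain ⟨h1, -, -, h2⟩ := h.sub hl hL hz
  have h3 : ∀ {α ℓ u}, Cut z (6 * l) α ℓ u → ∀ x ∉ ann c R, u x = 0 := fun hu x hx =>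
    hu.zero x (not_le.mp fun h4 => hx (h1 (h2 (h4.trans (by linarith) : dist x z ≤ _ + 1))))
  rw [piece, smul_mul_assoc, map_smul, sub_mul, map_sub, map_sub, smul_eq_mul,
    h.state.sig_ward hT.genA (h3 (cut_one hl z)) hT.genB (h3 ((cut_three hl z).aa hl h.pos c)),
    h.state.sig_ward hT.genA (h3 ((cut_one hl z).aa hl h.pos c)) hT.genB (h3 (cut_three hl z))]

theorem sc_mean : E (Sc A B (Ham 𝓔 β) c R l) = 0 := by
  rw [Sc, map_sum]
  refine Finset.sum_eq_zero fun z hz => ?_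
  simpa using h.piece_ward hT hl hL hz 1

theorem sc_local {z : Site} {ρ k : ℝ} (hρ : 2 * ρ ≤ l) (h1 : R + ρ ≤ dist z c + 4 * l)
    (h2 : dist z c + ρ ≤ 2 * R + 4 * l) (h3 : 0 ≤ ρ) {F : Pol n} (hF : Dep (closedBall z ρ) F)
    (hb : ∀ X, Gen X → Bd (DD X (fun x => tent R c x - tent R c z) F) k) :
    |E (Sc A B (Ham 𝓔 β) c R l * F) - E (DD G (fun x => tent R c x - tent R c z) F)| ≤
      2 * k * κ := by
  have l1 : (l : ℝ) ≤ L := by exact_mod_cast hL
  have l2 : (1 : ℝ) ≤ l := by exact_mod_cast hl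
  have l3 := h.big
  have hN : NN l ≠ 0 := (lt_of_lt_of_le (by positivity) (le_NN hl)).ne'
  have h4 := sum_local (A := A) (B := B) (tent R c) hl hρ (Z := Zs c R l) (fun y hy =>
    Finset.mem_filter.mpr ⟨mem_ball.mpr (by push_cast; linarith [dist_triangle y z c]),
      by linarith [dist_triangle_left z c y], by linarith [dist_triangle y z c]⟩) hF
  have h5 := fun X hX => h.mw z (by linarith) (by linarith) X hX
  have h6 : closedBall z ρ ⊆ closedBall z (7 * L) := closedBall_subset_closedBall (by linarith)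
  rw [Sc, Finset.sum_mul, map_sum, Finset.sum_congr rfl fun y hy => h.piece_ward hT hl hL hy F,
    ← Finset.mul_sum, ← map_sum, h4, map_smul, smul_eq_mul, inv_mul_cancel_left₀ hN,
    DD_comm A B, hT.comm, one_mul, map_sub, map_add]
  have h7 := abs_le.mp (h5 A hT.genA _ k ((hF.DD B _).mono h6) (hb B hT.genB))
  have h8 := abs_le.mp (h5 B hT.genB _ k ((hF.DD A _).mono h6) (hb A hT.genA))
  exact abs_le.mpr ⟨by linarith, by linarith⟩

theorem sc_J (hl2 : 2 ≤ l) :
    |E (Sc A B (Ham 𝓔 β) c R l * DD G (tent R c) (Ham 𝓔 β)) -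
      E (DD G (tent R c) (DD G (tent R c) (Ham 𝓔 β)))| ≤ 392 * n ^ 3 * β * κ := by
  have l2 : (2 : ℝ) ≤ l := by exact_mod_cast hl2
  have l1 : (l : ℝ) ≤ L := by exact_mod_cast hL
  have hR := h.pos
  have hβ := h.beta
  have hκ := h.kap
  have l3 := h.big
  have hc := cut_tent hR (ρ := 2 * R) (by push_cast; rfl) le_rfl c
  have hLc : Loc 𝓔 c (2 * R : ℕ) := h.loc.mono subset_rfl (by push_cast; simp; linarith)
  rw [DD_Ham hT.genG, Ob, Finset.mul_sum, map_sum, map_sum, map_sum, ← Finset.sum_sub_distrib]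
  refine (Finset.abs_sum_le_sum_abs _ _).trans ((hLc.sum_le
    (m := 2 * (n ^ 2 * (2 * n * (1 / R) * (β * (1 / R)))) * κ)
    (fun e _ ht => by simp [hc.dd_zero ht]) (fun e he ht => ?_) (by positivity)).trans ?_)
  · by_cases h0 : dd (tent R c) e = 0
    · simp only [h0, mul_zero, zero_smul, map_zero, sub_zero, abs_zero]
      positivity
    have h1 := hLc.dist_le he ht
    have h2 : (R : ℝ) ≤ dist e.1 c + 1 := by
      by_contra! h2
      exact h0 (by rw [dd, tent_eq_one hR (by linarith [dist_triangle_left e.2 c e.1]),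
        tent_eq_one hR (by linarith), sub_self])
    have h3 := (hLc.both he ht).1
    have h4 := h.sc_local hT hl hL (z := e.1) (ρ := 1) (by linarith) (by linarith)
      (by push_cast at h3; linarith) zero_le_one (dep_qq (mem_closedBall_self zero_le_one)
      (mem_closedBall'.mpr h1) ((β * dd (tent R c) e) • G)) fun X hX => by
        rw [DD_qq hX]
        exact bd_qq _ _ (EB.am (e := e) (M := fun e => (β * dd (tent R c) e) • G)
          (a := fun x => tent R c x - tent R c e.1) (α := 1 / R) hX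
          (hc.eb hβ hT.genG hLc he ht) (by simp) (by simpa using hc.lip _ _ h1))
    refine le_of_eq_of_le ?_ h4
    rw [DD_qq hT.genG, DD_qq hT.genG]
    congr 4
    simp only [smul_mul_assoc, mul_smul_comm]
    module
  · have h1 : (1 : ℝ) ≤ R := by linarith
    have h2 : ne (2 * R) ≤ 98 * R ^ 2 := by unfold ne; push_cast; nlinarith
    calc _ ≤ 98 * R ^ 2 * (2 * (n ^ 2 * (2 * n * (1 / R) * (β * (1 / R)))) * κ) := by gcongr
      _ = _ := by field_simp; ring

omit hT hl hL in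
theorem card_Zs (hL : 1 ≤ L) (l : ℕ) : ((Zs c R l).card : ℝ) ≤ 49 * R ^ 2 := by
  have h1 : (1 : ℝ) ≤ L := by exact_mod_cast hL
  have h2 := h.big
  have h3 : ((Zs c R l).card : ℝ) ≤ (2 * (3 * R) + 1) ^ 2 := by
    exact_mod_cast (Finset.card_filter_le _ _).trans_eq (card_ball _ _)
  nlinarith

theorem dep_piece {z : Site} (hz : z ∈ Zs c R l) :
    Dep (closedBall z ((6 * l : ℕ) + 1)) (piece A B (Ham 𝓔 β) (tent R c) l z) := by
  obtain ⟨-, -, h1, -⟩ := h.sub hl hL hz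
  exact Subalgebra.smul_mem _ (Subalgebra.sub_mem _
    (dep_Sig (cut_one hl z) ((cut_three hl z).aa hl h.pos c) hT.genA hT.genB h1)
    (dep_Sig ((cut_one hl z).aa hl h.pos c) (cut_three hl z) hT.genA hT.genB h1)) _

theorem sc_sc {l' : ℕ} (h1 : 12 * l + 2 ≤ l') (h2 : l' ≤ L) :
    |E (Sc A B (Ham 𝓔 β) c R l' * Sc A B (Ham 𝓔 β) c R l) +
      E (Sc A B (Ham 𝓔 β) c R l * DD G (tent R c) (Ham 𝓔 β))| ≤
      49 * 4 * (7 * L * 8 * (4 * n ^ 4 * ne (6 * L) * β + 4 * n ^ 5 * ne (6 * L) ^ 2 * β ^ 2)) *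
        κ := by
  have l1 : (l : ℝ) ≤ L := by exact_mod_cast hL
  have l2 : (1 : ℝ) ≤ l := by exact_mod_cast hl
  have l3 : (12 * l + 2 : ℝ) ≤ l' := by exact_mod_cast h1
  have hR := h.pos
  have hβ := h.beta
  have hκ := h.kap
  have hne := ne_nonneg (6 * L)
  set k := 7 * L / R * (8 / R) *
    (4 * n ^ 4 * ne (6 * L) * β + 4 * n ^ 5 * ne (6 * L) ^ 2 * β ^ 2) with hk
  have hN : 1 ≤ NN l := le_trans (by nlinarith) (le_NN hl)
  rw [Sc, Sc, Finset.mul_sum, Finset.sum_mul, map_sum, map_sum, ← Finset.sum_add_distrib]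
  refine (Finset.abs_sum_le_sum_abs _ _).trans ((Finset.sum_le_card_nsmul _ _ (2 * (k + k) * κ)
    fun z hz => ?_).trans ?_)
  · obtain ⟨s1, s2, s3, s4⟩ := h.sub hl hL hz
    have s5 := (Finset.mem_filter.mp hz).2
    have c1 := cut_one hl z
    have c3 := cut_three hl z
    have h3 := h.sc_local hT (l := l') (by omega) h2 (z := z) (ρ := (6 * l : ℕ) + 1) (k := k + k)
      (by push_cast; linarith) (by push_cast; linarith) (by push_cast; linarith) (by positivity)
      (h.dep_piece hT hl hL hz) fun X hX => by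
        have h4 : ∀ x, dist x z ≤ (6 * L : ℕ) + 1 → |tent R c x - tent R c z| ≤ 7 * L / R :=
          fun x hx => (tent_lip hR c x z).trans (by push_cast at hx; gcongr; linarith)
        have h5 : 1 / (l : ℝ) ≤ 1 := by rw [div_le_one (by linarith)]; exact l2
        have h6 : 6 * l / (R : ℝ) * (1 / l) ≤ 8 / R := by
          rw [div_mul_div_comm, div_le_div_iff₀ (by positivity) hR]; nlinarith
        rw [piece, Derivation.map_smul, map_sub]
        refine Bd.smul (Bd.sub ((bd_DD_Sig hβ (c1.mono_rad (by omega))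
          ((c3.aa hl hR c).mono_rad (by omega)) hT.genA hT.genB hX s2 h4).mono ?_)
          ((bd_DD_Sig hβ ((c1.aa hl hR c).mono_rad (by omega)) (c3.mono_rad (by omega))
          hT.genA hT.genB hX s2 h4).mono ?_)) (by positivity) (inv_le_one_of_one_le₀ hN)
        · calc _ ≤ 7 * L / R * (4 * n ^ 4 * ne (6 * L) * β * (1 * (8 / R)) +
                4 * n ^ 5 * ne (6 * L) ^ 2 * β ^ 2 * (1 * (8 / R))) := by gcongr
            _ = k := by ring
        · calc _ ≤ 7 * L / R * (4 * n ^ 4 * ne (6 * L) * β * (8 / R) +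
                4 * n ^ 5 * ne (6 * L) ^ 2 * β ^ 2 * (8 / R * 1)) := by gcongr
            _ = k := by ring
    refine le_of_eq_of_le ?_ h3
    rw [sub_eq_add_neg, piece, Derivation.map_smul, map_sub, map_smul, map_sub,
      h.state.DD_Sig c1 (c3.aa hl hR c) hT.genA hT.genB hT.genG s3 (s4.trans s1),
      h.state.DD_Sig (c1.aa hl hR c) c3 hT.genA hT.genB hT.genG s3 (s4.trans s1),
      smul_mul_assoc, map_smul, sub_mul, map_sub, Sc]
    congr 2
    simp only [smul_eq_mul]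
    ring
  · rw [nsmul_eq_mul]
    calc _ ≤ 49 * R ^ 2 * (2 * (k + k) * κ) := by gcongr; exact h.card_Zs (hl.trans hL) l
      _ = _ := by rw [hk]; field_simp; ring

theorem piece_sq {z : Site} (hz : z ∈ Zs c R l) :
    E (piece A B (Ham 𝓔 β) (tent R c) l z * piece A B (Ham 𝓔 β) (tent R c) l z) ≤
      4 * (288000 * n ^ 5 * β + 38880000 * n ^ 6 * β ^ 2) / (l * R) ^ 2 := by
  have l2 : (1 : ℝ) ≤ l := by exact_mod_cast hl
  have hR := h.pos
  have hβ := h.beta
  obtain ⟨s1, -, s3, s4⟩ := h.sub hl hL hz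
  have s5 := (closedBall_subset_closedBall (le_add_of_nonneg_right zero_le_one)).trans (s4.trans s1)
  have c1 := cut_one hl z
  have c3 := cut_three hl z
  have h1 := h.state.sig_sq_cut hβ c1 (c3.aa hl hR c) hT s3 s5
  have h2 := h.state.sig_sq_cut hβ (c1.aa hl hR c) c3 hT s3 s5
  have h3 : ne (6 * l) ≤ 450 * l ^ 2 := by unfold ne; push_cast; nlinarith
  have h4 := ne_nonneg (6 * l)
  set C := (288000 * n ^ 5 * β + 38880000 * n ^ 6 * β ^ 2) with hC
  replace h1 := h1.trans (show _ ≤ C * l ^ 2 / R ^ 2 from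
    calc _ ≤ 4 * n ^ 5 * β * (450 * l ^ 2) *
          (8 / R * (1 ^ 2 * (8 / R) + 2 * 1 * (6 * l / R) * (1 / l))) +
          3 * n ^ 6 * β ^ 2 * (450 * l ^ 2) ^ 2 * (1 / l * (8 / R)) ^ 2 := by gcongr
      _ = _ := by rw [hC]; field_simp; ring)
  replace h2 := h2.trans (show _ ≤ C * l ^ 2 / R ^ 2 from
    calc _ ≤ 4 * n ^ 5 * β * (450 * l ^ 2) *
          (1 / l * ((6 * l / R) ^ 2 * (1 / l) + 2 * (6 * l / R) * 1 * (8 / R))) +
          3 * n ^ 6 * β ^ 2 * (450 * l ^ 2) ^ 2 * (8 / R * (1 / l)) ^ 2 := by gcongr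
      _ = (237600 * n ^ 5 * β + 38880000 * n ^ 6 * β ^ 2) * l ^ 2 / R ^ 2 := by field_simp; ring
      _ ≤ _ := by rw [hC]; gcongr; norm_num)
  rw [piece]
  set p := Sig A B (Ham 𝓔 β) (tent l z) (aa (tent R c) z (tent (3 * l) z))
  set q := Sig A B (Ham 𝓔 β) (aa (tent R c) z (tent l z)) (tent (3 * l) z)
  have h5 := h.state.sq_nonneg (p + q)
  have h6 : E ((p - q) * (p - q)) ≤ 4 * (C * l ^ 2 / R ^ 2) := by
    simp only [add_mul, mul_add, sub_mul, mul_sub, map_add, map_sub] at h5 ⊢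
    linarith
  have h7 : (NN l)⁻¹ ≤ ((l : ℝ) ^ 2)⁻¹ := inv_anti₀ (by positivity) (le_NN hl)
  have h8 : 0 ≤ (NN l)⁻¹ := inv_nonneg.mpr (le_trans (by positivity) (le_NN hl))
  have h9 := h.state.sq_nonneg (p - q)
  rw [smul_mul_assoc, mul_smul_comm, map_smul, map_smul, smul_eq_mul, smul_eq_mul]
  calc _ ≤ ((l : ℝ) ^ 2)⁻¹ * (((l : ℝ) ^ 2)⁻¹ * (4 * (C * l ^ 2 / R ^ 2))) := by gcongr
    _ = _ := by field_simp

theorem sc_sq : E (Sc A B (Ham 𝓔 β) c R l * Sc A B (Ham 𝓔 β) c R l) ≤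
    49 * 729 * 4 * (288000 * n ^ 5 * β + 38880000 * n ^ 6 * β ^ 2) := by
  have l2 : (1 : ℝ) ≤ l := by exact_mod_cast hl
  have hR := h.pos
  have hβ := h.beta
  set m := 4 * (288000 * n ^ 5 * β + 38880000 * n ^ 6 * β ^ 2) / (l * R) ^ 2 with hm
  rw [Sc, Finset.sum_mul, map_sum]
  refine (Finset.sum_le_card_nsmul _ _ (729 * l ^ 2 * m) fun z hz => ?_).trans ?_
  · rw [Finset.mul_sum, map_sum, ← Finset.sum_filter_of_ne (p := (· ∈ ball z (12 * l + 1)))
      fun y hy hne => by_contra fun h1 => hne ?_]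
    · refine (Finset.sum_le_card_nsmul _ _ m fun y hy => ?_).trans ?_
      · linarith [h.state.two_mul_le (piece A B (Ham 𝓔 β) (tent R c) l z)
          (piece A B (Ham 𝓔 β) (tent R c) l y), h.piece_sq hT hl hL hz,
          h.piece_sq hT hl hL (Finset.mem_filter.mp hy).1]
      · have h2 : (((Zs c R l).filter (· ∈ ball z (12 * l + 1))).card : ℝ) ≤
            (2 * (12 * l + 1) + 1) ^ 2 := by
          exact_mod_cast (Finset.card_le_card fun y hy => (Finset.mem_filter.mp hy).2).trans_eq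
            (card_ball _ _)
        rw [nsmul_eq_mul]
        exact mul_le_mul_of_nonneg_right (h2.trans (by nlinarith)) (by positivity)
    · have h2 : ∀ {α ℓ u}, Cut z (6 * l) α ℓ u → ∀ x ∈ closedBall y ((6 * l : ℕ) + 1), u x = 0 :=
        fun hu x hx => hu.zero x (by
          have := not_le.mp (mt mem_ball.mpr h1)
          push_cast at this hx ⊢
          linarith [dist_triangle_left y z x, mem_closedBall.mp hx])
      rw [h.piece_ward hT hl hL hz, (h.dep_piece hT hl hL hy).DD_zero A (h2 (cut_one hl z)),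
        (h.dep_piece hT hl hL hy).DD_zero A (h2 ((cut_one hl z).aa hl hR c))]
      simp
  · rw [nsmul_eq_mul]
    calc _ ≤ 49 * R ^ 2 * (729 * l ^ 2 * m) := by gcongr; exact h.card_Zs (hl.trans hL) l
      _ = _ := by rw [hm]; field_simp

end Ctx

theorem State.var_ge {H J : Pol n} {D : Set Site} {E : Pol n →ₗ[ℝ] ℝ} (hE : State H D E) {M : ℕ}
    (hM : 0 < M) (S : Fin M → Pol n) {k η C : ℝ} (h0 : ∀ i, E (S i) = 0)
    (h1 : ∀ i, E (S i * J) ≤ -k + η)
    (h2 : ∀ i j, E (S i * S j) ≤ k + η + if i = j then C else 0) :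
    k - (E (J * J) - E J ^ 2) ≤ C / M + 3 * η := by
  have hM' : (0 : ℝ) < M := by exact_mod_cast hM
  have h3 := hE.sq_nonneg ((M : ℝ) • (J - E J • 1) + ∑ i, S i)
  have h4 : E ((∑ i, S i) * J) ≤ M * (-k + η) := by
    rw [Finset.sum_mul, map_sum]
    exact (Finset.sum_le_card_nsmul _ _ _ fun i _ => h1 i).trans_eq (by simp; ring)
  have h5 : E ((∑ i, S i) * ∑ i, S i) ≤ M * (M * (k + η) + C) := by
    rw [Finset.sum_mul_sum, map_sum]
    refine (Finset.sum_le_card_nsmul _ _ (M * (k + η) + C) fun i _ => ?_).trans_eq (by simp; ring)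
    rw [map_sum]
    exact (Finset.sum_le_sum fun j _ => h2 i j).trans_eq (by simp [Finset.sum_add_distrib]; ring)
  have h6 : E (∑ i, S i) = 0 := by simp [h0]
  simp only [add_mul, mul_add, sub_mul, mul_sub, smul_mul_assoc, mul_smul_comm, map_add, map_sub,
    map_smul, smul_eq_mul, one_mul, mul_one, hE.one, h6, mul_comm J (∑ i, S i)] at h3
  rw [← sub_le_iff_le_add, le_div_iff₀ hM', ← mul_le_mul_iff_right₀ hM']
  nlinarith

theorem stiffness {β : ℝ} (hβ : 0 ≤ β) {ε : ℝ} (hε : 0 < ε) : ∃ R₀ : ℕ, ∀ R : ℕ, R₀ ≤ R →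
    ∀ (𝓔 : Finset Edge) (c : Site) (E : Pol n →ₗ[ℝ] ℝ) (A B G : Mat n), Tri A B G →
    Loc 𝓔 c (3 * R) → State (Ham 𝓔 β) (ann c R) E →
    -ε ≤ E (DD G (tent R c) (DD G (tent R c) (Ham 𝓔 β))) +
      (E (DD G (tent R c) (Ham 𝓔 β) * DD G (tent R c) (Ham 𝓔 β)) -
        E (DD G (tent R c) (Ham 𝓔 β)) ^ 2) := by
  set C := 49 * 729 * 4 * (288000 * n ^ 5 * β + 38880000 * n ^ 6 * β ^ 2) + n ^ 3 * β * 98 with hC
  obtain ⟨M, hM⟩ := exists_nat_gt (2 * C / ε)
  have hM0 : (0 : ℝ) < M := lt_of_le_of_lt (by positivity) hM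
  set L := 2 * 13 ^ M with hL
  have := ne_nonneg (6 * L)
  set C' := 392 * n ^ 3 * β + 49 * 4 *
    (7 * L * 8 * (4 * n ^ 4 * ne (6 * L) * β + 4 * n ^ 5 * ne (6 * L) ^ 2 * β ^ 2)) with hC'
  set κ := ε / (6 * (C' + 1)) with hκ
  have hκ0 : 0 < κ := by positivity
  obtain ⟨ρ, hρ, hχ⟩ := exists_mw (7 * L) (κ := κ ^ 2 / (n ^ 3 * β + 1)) (by positivity)
  refine ⟨26 * L + 2 * ρ + 1, fun R hR 𝓔 c E A B G hT hloc hE => ?_⟩
  have hR' : (26 * L + 2 * ρ + 1 : ℝ) ≤ R := by exact_mod_cast hR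
  have hL0 : (0 : ℝ) ≤ L := by positivity
  have hρ0 : (0 : ℝ) ≤ ρ := by positivity
  have h : Ctx 𝓔 β c R L κ E := by
    refine ⟨hβ, hE, hloc, by linarith, hκ0.le, fun z h1 h2 X hX W k hW hk => ?_⟩
    obtain ⟨χ, c1, c2, c3⟩ := hχ z
    rw [hW.DD_congr X (a := 1) (b := χ) fun x hx => (c1 x (by simpa using hx)).symm]
    refine hE.mw hX (fun x hx => c2 x (not_le.mp fun h3 => hx ⟨?_, ?_⟩)) hκ0.le
      ((bd_DD_DD_Ham hX χ 𝓔 hβ).mono ?_) hk
    · linarith [dist_triangle_left z c x]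
    · linarith [dist_triangle x z c]
    · calc _ ≤ (n ^ 3 * β + 1) * (κ ^ 2 / (n ^ 3 * β + 1)) := by
            gcongr
            exacts [by linarith, c3 𝓔 (hloc.mono subset_rfl (by linarith))]
        _ = _ := by field_simp
  have l1 : ∀ i : Fin M, 2 ≤ 2 * 13 ^ (i : ℕ) ∧ 2 * 13 ^ (i : ℕ) ≤ L := fun i =>
    ⟨Nat.le_mul_of_pos_right _ (by positivity),
      Nat.mul_le_mul_left _ (Nat.pow_le_pow_right (by norm_num) i.2.le)⟩
  have hJ := fun i : Fin M => abs_le.mp (h.sc_J hT (by linarith [(l1 i).1]) (l1 i).2 (l1 i).1)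
  have hS : ∀ i j : Fin M, i < j → E (Sc A B (Ham 𝓔 β) c R (2 * 13 ^ (j : ℕ)) *
      Sc A B (Ham 𝓔 β) c R (2 * 13 ^ (i : ℕ))) ≤
      -E (DD G (tent R c) (DD G (tent R c) (Ham 𝓔 β))) + C' * κ := fun i j hij => by
    have h1 : 13 ^ ((i : ℕ) + 1) ≤ 13 ^ (j : ℕ) := Nat.pow_le_pow_right (by norm_num) hij
    have h2 := abs_le.mp (h.sc_sc hT (by linarith [(l1 i).1]) (l1 i).2
      (by linarith [(l1 i).1, pow_succ 13 (i : ℕ)]) (l1 j).2)
    linarith [hJ i]
  have hk : E (DD G (tent R c) (DD G (tent R c) (Ham 𝓔 β))) ≤ n ^ 3 * β * 98 := by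
    have hc := cut_tent h.pos (ρ := 2 * R) (by push_cast; rfl) le_rfl c
    refine (le_abs_self _).trans (hE.abs_le ((bd_DD_DD_Ham hT.genG _ 𝓔 hβ).mono
      (mul_le_mul_of_nonneg_left ((hc.grad (hloc.mono subset_rfl
        (by push_cast; simp; linarith))).trans ?_) (by positivity))))
    rw [ne, one_div, inv_pow, ← div_eq_mul_inv, div_le_iff₀ (pow_pos h.pos 2)]
    push_cast
    nlinarith
  have key := hE.var_ge (J := DD G (tent R c) (Ham 𝓔 β)) (by exact_mod_cast hM0)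
    (fun i : Fin M => Sc A B (Ham 𝓔 β) c R (2 * 13 ^ (i : ℕ)))
    (k := -E (DD G (tent R c) (DD G (tent R c) (Ham 𝓔 β)))) (η := C' * κ) (C := C)
    (fun i => h.sc_mean hT (by linarith [(l1 i).1]) (l1 i).2) (fun i => by
      have : 392 * n ^ 3 * β * κ ≤ C' * κ := by gcongr; exact le_add_of_nonneg_right (by positivity)
      linarith [hJ i]) fun i j => by
      rcases lt_trichotomy i j with h1 | rfl | h1
      · rw [if_neg h1.ne, mul_comm, add_zero]; exact hS i j h1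
      · have : 0 ≤ C' * κ := by positivity
        rw [if_pos rfl]
        linarith [h.sc_sq hT (by linarith [(l1 i).1]) (l1 i).2]
      · rw [if_neg h1.ne', add_zero]; exact hS j i h1
  have e1 : C / M ≤ ε / 2 := by
    rw [div_lt_iff₀ hε] at hM
    rw [div_le_iff₀ hM0]
    linarith
  have e3 : 0 < C' + 1 := by positivity
  have e2 : (C' + 1) * κ = ε / 6 := by rw [hκ]; field_simp
  linarith

end Vale.Agent.P163
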